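import Vale.Agent.P103.Wind

/-!
A small interface for real singular chains.
-/

open CategoryTheory AlgebraicTopology Simplicial Limits Opposite

noncomputable section

namespace Vale.Agent.P103

/-- The coefficient module. -/
abbrev R0 : ModuleCat.{0} ℝ := ModuleCat.of ℝ ℝ

/-- Real singular chains. -/
abbrev Ch (X : Type) [TopologicalSpace X] : ChainComplex (ModuleCat.{0} ℝ) ℕ :=
  (TopCat.toSSet.obj (TopCat.of X)).chainComplex R0

variable {X Y Z : Type} [TopologicalSpace X] [TopologicalSpace Y] [TopologicalSpace Z] {n : ℕ}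

/-- The induced chain map. -/
def chMap (f : C(X, Y)) : Ch X ⟶ Ch Y :=
  SSet.chainComplexMap (TopCat.toSSet.map (TopCat.ofHom f)) R0

/-- The chain of a singular simplex. -/
def sx (σ : C(Dl n, X)) : R0 ⟶ (Ch X).X n :=
  (TopCat.toSSet.obj (TopCat.of X)).ιChainComplex
    ((TopCat.toSSetObjEquiv (TopCat.of X) (op ⦋n⦌)).symm σ)

lemma sx_d (σ : C(Dl (n + 1), X)) :
    sx σ ≫ (Ch X).d (n + 1) n = ∑ i : Fin (n + 2), (-1) ^ i.val • sx (σ.comp (face i)) := by
  rw [sx, SSet.ιChainComplex_d]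
  rfl

lemma sx_map (σ : C(Dl n, X)) (f : C(X, Y)) : sx σ ≫ (chMap f).f n = sx (f.comp σ) := by
  rw [sx, chMap, SSet.ι_chainComplexMap_f]
  rfl

lemma ch_ext {T : ModuleCat.{0} ℝ} {f g : (Ch X).X n ⟶ T}
    (h : ∀ σ : C(Dl n, X), sx σ ≫ f = sx σ ≫ g) : f = g := by
  apply SSet.chainComplex_hom_ext
  intro x
  obtain ⟨σ, rfl⟩ := (TopCat.toSSetObjEquiv (TopCat.of X) (op ⦋n⦌)).symm.surjective x
  exact h σ

/-- The cochain with given values on simplices. -/
def coch (φ : C(Dl n, X) → ℝ) : (Ch X).X n ⟶ R0 :=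
  ((TopCat.toSSet.obj (TopCat.of X)).isColimitChainComplexXCofan R0 n).desc
    (Cofan.mk R0 fun x => φ (TopCat.toSSetObjEquiv (TopCat.of X) (op ⦋n⦌) x) • 𝟙 R0)

lemma sx_coch (φ : C(Dl n, X) → ℝ) (σ : C(Dl n, X)) : sx σ ≫ coch φ = φ σ • 𝟙 R0 := by
  have := ((TopCat.toSSet.obj (TopCat.of X)).isColimitChainComplexXCofan R0 n).fac
    (Cofan.mk R0 fun x => φ (TopCat.toSSetObjEquiv (TopCat.of X) (op ⦋n⦌) x) • 𝟙 R0)
    ⟨(TopCat.toSSetObjEquiv (TopCat.of X) (op ⦋n⦌)).symm σ⟩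
  refine this.trans ?_
  simp only [Cofan.mk_ι_app, Equiv.apply_symm_apply]

lemma chMap_comp (f : C(X, Y)) (g : C(Y, Z)) : chMap (g.comp f) = chMap f ≫ chMap g := by
  ext n : 1
  apply ch_ext
  intro σ
  rw [HomologicalComplex.comp_f, ← Category.assoc, sx_map, sx_map, sx_map]
  rfl

lemma chMap_id : chMap (ContinuousMap.id X) = 𝟙 _ := by
  ext n : 1
  apply ch_ext
  intro σ
  rw [sx_map]
  simp

lemma sx_d_two (σ : C(Dl 2, X)) : sx σ ≫ (Ch X).d 2 1 =
    sx (σ.comp (face 0)) - sx (σ.comp (face 1)) + sx (σ.comp (face 2)) := by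
  rw [sx_d, Fin.sum_univ_three]
  simp [sub_eq_add_neg]

lemma sx_d_one (σ : C(Dl 1, X)) : sx σ ≫ (Ch X).d 1 0 =
    sx (σ.comp (face 0)) - sx (σ.comp (face 1)) := by
  rw [sx_d, Fin.sum_univ_two]
  simp [sub_eq_add_neg]

lemma homologyMap_homotopic {f g : C(X, Y)} (h : f.Homotopic g) (k : ℕ) :
    HomologicalComplex.homologyMap (chMap f) k = HomologicalComplex.homologyMap (chMap g) k := by
  obtain ⟨H⟩ := h
  exact TopCat.Homotopy.congr_homologyMap_singularChainComplexFunctor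
    (f := TopCat.ofHom f) (g := TopCat.ofHom g) H R0 k

lemma homologyEnd_eq (f : C(X, X)) (k : ℕ) :
    homologyEnd k f = (HomologicalComplex.homologyMap (chMap f) k).hom := rfl

lemma isZero_homology_complex {k : ℕ} (hk : k ≠ 0) : IsZero ((Ch ℂ).homology k) := by
  have h0 : IsZero ((Ch PUnit).homology k) :=
    isZero_singularHomologyFunctor_of_totallyDisconnectedSpace (ModuleCat.{0} ℝ) k R0
      (TopCat.of PUnit) hk
  have h1 : (ContinuousMap.id ℂ).Homotopic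
      ((ContinuousMap.const PUnit (0 : ℂ)).comp (ContinuousMap.const ℂ PUnit.unit)) :=
    ⟨⟨⟨fun p => (1 - (p.1 : ℝ)) • p.2, by fun_prop⟩, fun x => by simp, fun x => by simp⟩⟩
  have h2 := homologyMap_homotopic h1 k
  rw [chMap_id, chMap_comp, HomologicalComplex.homologyMap_id,
    HomologicalComplex.homologyMap_comp, h0.eq_zero_of_src (HomologicalComplex.homologyMap _ k),
    comp_zero] at h2
  exact (IsZero.iff_id_eq_zero _).2 h2

lemma exists_fill (k : ℕ) (z : R0 ⟶ (Ch ℂ).X (k + 1)) (hz : z ≫ (Ch ℂ).d (k + 1) k = 0) :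
    ∃ b : R0 ⟶ (Ch ℂ).X (k + 2), b ≫ (Ch ℂ).d (k + 2) (k + 1) = z := by
  have h1 : (Ch ℂ).ExactAt (k + 1) :=
    (HomologicalComplex.exactAt_iff_isZero_homology _ _).2 (isZero_homology_complex (by omega))
  have h2 := (HomologicalComplex.exactAt_iff' (Ch ℂ) (k + 2) (k + 1) k (by simp) (by simp)).1 h1
  exact ⟨h2.liftFromProjective z hz, h2.liftFromProjective_comp z hz⟩

/-- The homology class of a two-cycle. -/
def cls (z : R0 ⟶ (Ch X).X 2) (hz : z ≫ (Ch X).d 2 1 = 0) : R0 ⟶ (Ch X).homology 2 :=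
  (Ch X).liftCycles z 1 (by simp) hz ≫ (Ch X).homologyπ 2

lemma cls_ne_zero (z : R0 ⟶ (Ch X).X 2) (hz : z ≫ (Ch X).d 2 1 = 0) (a : (Ch X).X 2 ⟶ R0)
    (ha : (Ch X).d 3 2 ≫ a = 0) (h : z ≫ a ≠ 0) : cls z hz ≠ 0 := by
  intro h0
  apply h
  have : cls z hz ≫ (Ch X).homologyι 2 ≫ (Ch X).descOpcycles a 3 (by simp) ha = z ≫ a := by
    rw [cls, Category.assoc, HomologicalComplex.homology_π_ι_assoc,
      HomologicalComplex.p_descOpcycles, HomologicalComplex.liftCycles_i_assoc]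
  rw [← this, h0, zero_comp]

lemma cls_map (z : R0 ⟶ (Ch X).X 2) (hz : z ≫ (Ch X).d 2 1 = 0) (f : C(X, X)) (c : ℝ)
    (b : R0 ⟶ (Ch X).X 3) (hb : z ≫ (chMap f).f 2 - c • z = b ≫ (Ch X).d 3 2) :
    cls z hz ≫ HomologicalComplex.homologyMap (chMap f) 2 = c • cls z hz := by
  have h1 := (Ch X).liftCycles_homologyπ_eq_zero_of_boundary _ 1 (by simp) b hb
  rw [cls, Category.assoc, HomologicalComplex.homologyπ_naturality, ← Category.assoc,
    HomologicalComplex.liftCycles_comp_cyclesMap, ← sub_eq_zero, ← h1, ← Linear.smul_comp,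
    ← Preadditive.sub_comp]
  congr 1
  rw [← cancel_mono ((Ch X).iCycles 2)]
  simp

end Vale.Agent.P103
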