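import Mathlib

/-!
Definitions used in the statement for problem P103 (entropy conjecture for C^1 maps).
-/

open scoped Manifold ContDiff ENNReal
open CategoryTheory AlgebraicTopology Filter

noncomputable section

namespace Vale.Agent.P103

/-- `S` is `(n, ε)`-separated: distinct points satisfy `d_n(x, y) > ε`. -/
def IsSeparated {X : Type} [MetricSpace X] (f : X → X) (n : ℕ) (ε : ℝ) (S : Finset X) : Prop :=
  ∀ x ∈ S, ∀ y ∈ S, x ≠ y → ∃ j < n, ε < dist (f^[j] x) (f^[j] y)

/-- `s_f(n, ε)`: the largest cardinality of an `(n, ε)`-separated set. -/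
def sepNum {X : Type} [MetricSpace X] (f : X → X) (n : ℕ) (ε : ℝ) : ℝ≥0∞ :=
  ⨆ (S : Finset X) (_ : IsSeparated f n ε S), (S.card : ℝ≥0∞)

/-- Topological entropy; the limit as `ε` decreases to `0` is a supremum by monotonicity. -/
def topEntropy {X : Type} [MetricSpace X] (f : X → X) : EReal :=
  ⨆ (ε : ℝ) (_ : 0 < ε),
    limsup (fun n : ℕ => ENNReal.log (sepNum f n ε) / (n : EReal)) atTop

/-- Singular homology `H_k(X; ℝ)`. -/
abbrev realHomology (k : ℕ) (X : Type) [TopologicalSpace X] : ModuleCat.{0} ℝ :=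
  ((singularHomologyFunctor (ModuleCat.{0} ℝ) k).obj (ModuleCat.of ℝ ℝ)).obj (TopCat.of X)

/-- The induced endomorphism `f_{*k}` of `H_k(X; ℝ)`. -/
def homologyEnd (k : ℕ) {X : Type} [TopologicalSpace X] (f : C(X, X)) :
    Module.End ℝ (realHomology k X) :=
  (((singularHomologyFunctor (ModuleCat.{0} ℝ) k).obj (ModuleCat.of ℝ ℝ)).map
    (TopCat.ofHom f)).hom

/-- Spectral radius of `f_*` on the sum of the `H_k(X; ℝ)`, `0 ≤ k ≤ N`:
the supremum of the moduli of the complex eigenvalues. -/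
def homologySpectralRadius (N : ℕ) {X : Type} [TopologicalSpace X] (f : C(X, X)) : ℝ≥0∞ :=
  ⨆ (k : ℕ) (_ : k ≤ N) (μ : ℂ)
    (_ : Module.End.HasEigenvalue (LinearMap.baseChange ℂ (homologyEnd k f)) μ), ‖μ‖ₑ

/-- `a` is an eigenvalue of `f_{*k}` with a nonzero real eigenclass. -/
def HasEigenclass (k : ℕ) {X : Type} [TopologicalSpace X] (f : C(X, X)) (a : ℝ) : Prop :=
  ∃ c : realHomology k X, c ≠ 0 ∧ homologyEnd k f c = a • c

/-- The entropy conjecture for `C^1` maps of compact smooth manifolds without boundary. -/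
def EntropyConjecture : Prop :=
  ∀ (E : Type) [NormedAddCommGroup E] [NormedSpace ℝ E] [FiniteDimensional ℝ E]
    (M : Type) [MetricSpace M] [CompactSpace M] [Nonempty M] [ChartedSpace E M]
    [IsManifold 𝓘(ℝ, E) ∞ M] (f : C(M, M)), ContMDiff 𝓘(ℝ, E) 𝓘(ℝ, E) 1 f →
    ENNReal.log (homologySpectralRadius (Module.finrank ℝ E) f) ≤ topEntropy f

/-- The unit sphere `S^n` in Euclidean space of dimension `n + 1`. -/
def unitSphere (n : ℕ) : TopCat.{0} :=
  TopCat.of (Metric.sphere (0 : EuclideanSpace ℝ (Fin (n + 1))) 1)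

end Vale.Agent.P103
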