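import Vale.Agent.P103.Step

/-!
Dynamics: the circle coordinate makes a bounded number of turns along every orbit.
-/

open Filter Topology Real

noncomputable section

namespace Vale.Agent.P103

lemma adv_nonneg {σ : St} (hv : Valid σ) : 0 ≤ adv σ := by
  have h1 : σ.2.2.2.re ≤ 1 := (Complex.re_le_norm _).trans hv.2.le
  have := cut_nonneg 8 9 (nsq σ.2.2.1)
  have := mul_nonneg (cut_nonneg (7 / 8) (9 / 10) σ.2.1) (nu_nonneg σ.2.1)
  rw [adv]
  linarith

lemma adv_le {σ : St} (hv : Valid σ) : adv σ ≤ 2 := by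
  have h1 : -1 ≤ σ.2.2.2.re := by
    have := (Complex.abs_re_le_norm σ.2.2.2).trans hv.2.le
    linarith [neg_abs_le σ.2.2.2.re]
  have := cut_le_one 8 9 (nsq σ.2.2.1)
  have := mul_le_one₀ (cut_le_one (7 / 8) (9 / 10) σ.2.1) (nu_nonneg σ.2.1) (nu_le_one σ.2.1)
  rw [adv]
  linarith

lemma one_sub_cos_le (θ : ℝ) (k : ℤ) (h : θ ≤ k * (2 * π)) :
    θ + 3 / 4 * (1 - cos θ) ≤ k * (2 * π) := by
  have h1 : |cos (k * (2 * π)) - cos θ| ≤ |k * (2 * π) - θ| := abs_cos_sub_cos_le _ _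
  rw [cos_int_mul_two_pi, abs_of_nonneg (by linarith : 0 ≤ k * (2 * π) - θ)] at h1
  have h2 := le_abs_self (1 - cos θ)
  linarith [cos_le_one θ]

lemma cos_window {θ : ℝ} (h1 : -(4 * π / 3) ≤ θ) (h2 : θ ≤ -(2 * π / 3)) : cos θ ≤ -1 / 2 := by
  have h3 : cos θ = -cos |θ + π| := by rw [cos_abs, cos_add_pi, neg_neg]
  have h4 : |θ + π| ≤ π / 3 := abs_le.2 ⟨by linarith, by linarith⟩
  have h5 : cos (π / 3) ≤ cos |θ + π| :=
    cos_le_cos_of_nonneg_of_le_pi (abs_nonneg _) (by linarith [pi_pos]) h4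
  rw [cos_pi_div_three] at h5
  linarith

lemma cos_nonneg_of_near {θ : ℝ} (h1 : -(π / 2) ≤ θ) (h2 : θ ≤ 0) : 0 ≤ cos θ :=
  cos_nonneg_of_neg_pi_div_two_le_of_le h1 (by linarith [pi_pos])

lemma cos_nonpos_of_far {θ : ℝ} (h1 : -(2 * π / 3) ≤ θ) (h2 : θ ≤ -(π / 2)) : cos θ ≤ 0 := by
  rw [← cos_neg]
  exact cos_nonpos_of_pi_div_two_le_of_le (by linarith) (by linarith [pi_pos])

/-- `θ` is an argument of the circle coordinate. -/
def Lifts (σ : St) (θ : ℝ) : Prop := σ.2.2.2 = Complex.exp (θ * Complex.I)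

lemma Lifts.re {σ : St} {θ : ℝ} (h : Lifts σ θ) : σ.2.2.2.re = cos θ := by
  rw [h, Complex.exp_ofReal_mul_I_re]

lemma Lifts.step {σ : St} {θ : ℝ} (h : Lifts σ θ) : Lifts (step σ) (θ + adv σ) := by
  unfold Lifts at h ⊢
  simp only [P103.step]
  rw [h, ← Complex.exp_add]
  push_cast
  ring_nf

/-- Points on the telescope with matching phase. -/
def Good (σ : St) (θ : ℝ) : Prop :=
  ∃ (a b : ℝ) (u : ℂ), 0 ≤ a ∧ 0 ≤ b ∧ ‖u‖ = 1 ∧ σ.1 = stW (a * u) ∧ σ.2.1 = stH (a * u) ∧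
    σ.2.2.1 = tel (b * u) ∧ b ≤ 8 ∧ (b < 2 → a ≤ 27 / 8) ∧ θ ≤ 0 ∧ (a = b ∨ -(π / 2) ≤ θ)

/-- The invariant along orbits. -/
def Lv (σ : St) (θ : ℝ) : Prop :=
  θ ≤ -(2 * π / 3) ∨ Good σ θ ∨ (19 / 20 ≤ σ.2.1 ∧ θ ≤ 2) ∨ (24 / 25 ≤ σ.2.1 ∧ θ ≤ 4) ∨
    (24 / 25 ≤ σ.2.1 ∧ σ.2.2.1 = 0 ∧ θ ≤ 2 * π)

lemma esc_step {σ : St} (hv : Valid σ) (h : 19 / 20 ≤ σ.2.1) :
    1 - (step σ).2.1 ≤ (1 - σ.2.1) / 400 := by
  have : (step σ).2.1 = cubeH σ.2.1 := newH_of_plain (Or.inr h)
  rw [this]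
  exact one_sub_cubeH h hv.h_le

lemma esc_step' {σ : St} (hv : Valid σ) (h : 19 / 20 ≤ σ.2.1) : 24 / 25 ≤ (step σ).2.1 := by
  have := esc_step hv h
  linarith

lemma newX_of_ge {σ : St} (h : 24 / 25 ≤ σ.2.1) : (step σ).2.2.1 = 0 := by
  change newX σ = 0
  rw [newX, nu_of_ge h, zero_smul]

lemma esc_of_newZ {σ : St} (hv : Valid σ) (hh : σ.2.1 ≤ 24 / 25) (h : 39 ≤ ‖newZ σ‖ ^ 2) :
    19 / 20 ≤ (step σ).2.1 := by
  change 19 / 20 ≤ newH σ
  rw [newH_of_le hv hh]
  have := (le_stH_iff (ζ := newZ σ) (c := 40) (by norm_num)).2 (by linarith)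
  linarith

lemma blend_polar (t a : ℝ) {u : ℂ} (ha : 0 ≤ a) (hu : ‖u‖ = 1) :
    blend t (a * u) = (((1 - t) * a + t * a ^ 3 / 4 : ℝ) : ℂ) * u := by
  rw [blend, norm_polar ha hu]
  push_cast
  ring

lemma Lv_step_esc {σ : St} {θ : ℝ} (hv : Valid σ) (h : 19 / 20 ≤ σ.2.1) (hθ : θ ≤ 2) :
    Lv (step σ) (θ + adv σ) :=
  Or.inr (Or.inr (Or.inr (Or.inl ⟨esc_step' hv h, by linarith [adv_le hv]⟩)))

lemma Lv_step_window {σ : St} {θ : ℝ} (hv : Valid σ) (hl : Lifts σ θ)
    (hθ : θ ≤ -(2 * π / 3)) : Lv (step σ) (θ + adv σ) := by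
  have hpi := pi_gt_three
  have ha := adv_le hv
  by_cases he : 19 / 20 ≤ σ.2.1
  · exact Lv_step_esc hv he (by linarith)
  by_cases h1 : θ < -(4 * π / 3)
  · exact Or.inl (by linarith)
  push Not at he h1
  have hτ : tau σ.2.2.2 = 1 := by
    have := cos_window h1 hθ
    exact cut_eq_one (by norm_num) (by rw [hl.re]; linarith)
  obtain ⟨u, hu, hζ⟩ := exists_polar (zeta σ.1 σ.2.1)
  set r := ‖zeta σ.1 σ.2.1‖ with hr
  have hr0 : 0 ≤ r := norm_nonneg _
  have hZ : newZ σ = ((r ^ 3 : ℝ) : ℂ) * u ^ 3 := by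
    rw [newZ_of_plain (Or.inl hτ), hζ]
    push_cast
    ring
  have hn : ‖newZ σ‖ = r ^ 3 := by rw [hZ, norm_polar (by positivity) (norm_cube hu)]
  by_cases h39 : 39 ≤ ‖newZ σ‖ ^ 2
  · exact Or.inr (Or.inr (Or.inl ⟨esc_of_newZ hv (by linarith) h39, by linarith⟩))
  refine Or.inr (Or.inl ⟨r ^ 3, r ^ 3, u ^ 3, by positivity, by positivity, norm_cube hu,
    ?_, ?_, ?_, ?_, fun h => by linarith, by linarith, Or.inl rfl⟩)
  · rw [← hZ]
    exact newW_of_le hv (by linarith)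
  · rw [← hZ]
    exact newH_of_le hv (by linarith)
  · change newX σ = _
    rw [newX, hτ, nu_of_le he.le, sub_self, zero_smul, add_zero, one_smul, hζ,
      blend_polar _ _ hr0 hu, tel1_polar (by positivity) hu]
    congr 3
    ring
  · rw [hn] at h39
    nlinarith [pow_nonneg hr0 3]

lemma Lv_step_good {σ : St} {θ : ℝ} (hv : Valid σ) (hl : Lifts σ θ) (hg : Good σ θ) :
    Lv (step σ) (θ + adv σ) := by
  have hpi := pi_gt_three
  have hpi' := pi_lt_four
  have hadv := adv_le hv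
  obtain ⟨a, b, u, ha, hb, hu, hw, hh, hx, hb8, hab, hθ0, hcase⟩ := hg
  by_cases he : 19 / 20 ≤ σ.2.1
  · exact Lv_step_esc hv he (by linarith)
  by_cases h1 : θ ≤ -(2 * π / 3)
  · exact Lv_step_window hv hl h1
  push Not at he h1
  have hζ : zeta σ.1 σ.2.1 = a * u := by
    rw [hw, hh]
    exact zeta_st (by rw [← hh]; linarith)
  have hN : nsq σ.2.2.1 ≤ 8 := by
    have h2 := nsq_le σ.2.2.1
    have h3 : ‖σ.2.2.1‖ ≤ 2 := by rw [hx]; exact norm_tel_le _
    nlinarith [norm_nonneg σ.2.2.1]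
  have hτab : tau σ.2.2.2 ≠ 0 → a = b := by
    intro hτ
    refine hcase.resolve_right fun h2 => hτ ?_
    have := cos_nonneg_of_near h2 hθ0
    exact cut_eq_zero (by norm_num) (by rw [hl.re]; linarith)
  have t0 := tau_nonneg σ.2.2.2
  have t1 := tau_le_one σ.2.2.2
  have e0 := eps_nonneg σ.2.1
  have e1 := eps_le_one σ.2.1
  rcases le_or_gt 2 b with hb2 | hb2
  · -- escape
    obtain ⟨q, hq, hQ⟩ := readout_tel_big hb2 hb8 hu
    set P := (1 - tau σ.2.2.2) * (1 - eps σ.2.1) with hP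
    have hP0 : 0 ≤ P := mul_nonneg (by linarith) (by linarith)
    have hP1 : P ≤ 1 := mul_le_one₀ (by linarith) (by linarith) (by linarith)
    have hZ : newZ σ = ((a ^ 3 + P * (q - a ^ 3) : ℝ) : ℂ) * u ^ 3 := by
      rw [newZ, hζ, hx, hQ, ← hP]
      push_cast
      ring
    have h8 : 8 ≤ a ^ 3 + P * (q - a ^ 3) := by
      by_cases hP' : P = 1
      · rw [hP']; linarith
      have ha2 : 2 ≤ a := by
        by_cases hτ : tau σ.2.2.2 = 0
        · have hε : eps σ.2.1 ≠ 0 := fun h => hP' (by rw [hP, hτ, h]; ring)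
          have h3 := lt_of_cut_ne_zero (by norm_num) hε
          have h4 := (le_stH_iff (ζ := a * u) (c := 20) (by norm_num)).1 (by rw [← hh]; linarith)
          rw [norm_polar ha hu] at h4
          nlinarith
        · rw [hτab hτ]; exact hb2
      have : 8 ≤ a ^ 3 := by nlinarith [pow_le_pow_left₀ (by norm_num) ha2 3]
      nlinarith
    refine Or.inr (Or.inr (Or.inl ⟨esc_of_newZ hv (by linarith) ?_, by linarith⟩))
    rw [hZ, norm_polar (by linarith) (norm_cube hu)]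
    nlinarith
  · -- stay on the telescope
    have ha' := hab hb2
    have hh78 : σ.2.1 ≤ 7 / 8 := by
      have := (stH_le_iff (ζ := a * u) (c := 16) (by norm_num)).2
        (by rw [norm_polar ha hu]; nlinarith)
      rw [hh]
      linarith
    have hε : eps σ.2.1 = 0 := cut_eq_zero (by norm_num) (by linarith)
    have hadv' : adv σ = 3 / 4 * (1 - cos θ) := by
      rw [adv, cut_eq_zero (by norm_num) hN, cut_eq_zero (by norm_num) hh78, hl.re]
      ring
    have hθ1 : θ + adv σ ≤ 0 := by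
      have := one_sub_cos_le θ 0 (by simpa using hθ0)
      rw [hadv']
      simpa using this
    have hθ2 : -(π / 2) ≤ θ + adv σ := by
      rcases le_total (-(π / 2)) θ with h2 | h2
      · linarith [adv_nonneg hv]
      · have := cos_nonpos_of_far h1.le h2
        rw [hadv']
        linarith
    obtain ⟨q, hq, hQ⟩ := readout_tel_mid hb hb2.le hu
    have hq0 : b ≤ 3 / 2 → q = 0 := by
      intro h2
      rw [readout_tel_small hb h2 hu] at hQ
      have hu0 : u ^ 3 ≠ 0 := by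
        intro h3
        have := norm_cube hu
        rw [h3] at this
        simp at this
      exact_mod_cast (mul_eq_zero.1 hQ.symm).resolve_right hu0
    have hZ : newZ σ = (((1 - tau σ.2.2.2) * q + tau σ.2.2.2 * a ^ 3 : ℝ) : ℂ) * u ^ 3 := by
      rw [newZ, hζ, hx, hQ, hε]
      push_cast
      ring
    have hLx : L σ.2.2.1 = tel (((4 * b : ℝ) : ℂ) * u ^ 3) := by
      rw [hx, L_tel hb (by linarith) hu]
    have hX : newX σ = tel1 (blend (tau σ.2.2.2) (a * u)) +
        (1 - tau σ.2.2.2) • (tel (((4 * b : ℝ) : ℂ) * u ^ 3) - tel1 (a * u)) := by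
      rw [newX, nu_of_le he.le, kap_of_le (by linarith), one_smul, one_smul, hζ, hLx]
    have hW' : (step σ).1 = stW (newZ σ) := newW_of_le hv (by linarith)
    have hH' : (step σ).2.1 = stH (newZ σ) := newH_of_le hv (by linarith)
    by_cases hτ : tau σ.2.2.2 = 0
    · refine Or.inr (Or.inl ⟨q, 4 * b, u ^ 3, hq, by linarith, norm_cube hu, ?_, ?_, ?_,
        by linarith, fun h => by rw [hq0 (by linarith)]; norm_num, hθ1, Or.inr hθ2⟩)
      · rw [hW', hZ, hτ]; simp
      · rw [hH', hZ, hτ]; simp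
      · change newX σ = _
        rw [hX, hτ, blend_polar _ _ ha hu]
        simp
    · obtain rfl := hτab hτ
      have ha3 : a ^ 3 ≤ 8 := by nlinarith [pow_le_pow_left₀ ha hb2.le 3]
      have ha30 : 0 ≤ a ^ 3 := by positivity
      refine Or.inr (Or.inl ⟨(1 - tau σ.2.2.2) * q + tau σ.2.2.2 * a ^ 3,
        4 * ((1 - tau σ.2.2.2) * a + tau σ.2.2.2 * a ^ 3 / 4), u ^ 3, by positivity,
        by have : 0 ≤ 1 - tau σ.2.2.2 := by linarith
           positivity, norm_cube hu, by rw [hW', hZ], by rw [hH', hZ], ?_,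
        by nlinarith, fun h => ?_, hθ1, Or.inr hθ2⟩)
      · change newX σ = _
        rw [hX, blend_polar _ _ ha hu, tel1_polar ha hu, sub_self, smul_zero, add_zero,
          tel1_polar _ hu]
        have : 0 ≤ 1 - tau σ.2.2.2 := by linarith
        positivity
      · have h32 : a ≤ 3 / 2 := by
          by_contra h2
          push Not at h2
          have : 27 / 8 ≤ a ^ 3 := by nlinarith [pow_le_pow_left₀ (by norm_num) h2.le 3]
          nlinarith
        have : a ^ 3 ≤ 27 / 8 := by nlinarith [pow_le_pow_left₀ ha h32 3]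
        rw [hq0 h32]
        nlinarith

lemma Lv.step {σ : St} {θ : ℝ} (hv : Valid σ) (hl : Lifts σ θ) (h : Lv σ θ) :
    Lv (step σ) (θ + adv σ) := by
  have hpi := pi_gt_three
  rcases h with h | h | h | h | h
  · exact Lv_step_window hv hl h
  · exact Lv_step_good hv hl h
  · exact Lv_step_esc hv h.1 h.2
  · exact Or.inr (Or.inr (Or.inr (Or.inr ⟨esc_step' hv (by linarith [h.1]), newX_of_ge h.1,
      by linarith [adv_le hv, h.2]⟩)))
  · refine Or.inr (Or.inr (Or.inr (Or.inr ⟨esc_step' hv (by linarith [h.1]), newX_of_ge h.1,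
      ?_⟩)))
    have hadv' : adv σ = 3 / 4 * (1 - cos θ) := by
      rw [adv, nu_of_ge h.1, h.2.1, cut_eq_zero (by norm_num) (by simp [nsq]), hl.re]
      ring
    have := one_sub_cos_le θ 1 (by simpa using h.2.2)
    rw [hadv']
    simpa using this

lemma Lv.le {σ : St} {θ : ℝ} (h : Lv σ θ) : θ ≤ 2 * π := by
  have hpi := pi_gt_three
  rcases h with h | h | h | h | h
  · linarith
  · obtain ⟨a, b, u, -, -, -, -, -, -, -, -, h, -⟩ := h
    linarith
  · linarith [h.2]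
  · linarith [h.2]
  · exact h.2.2

/-- The total advance along an orbit is bounded. -/
theorem sum_adv_le {σ : St} (hv : Valid σ) (n : ℕ) :
    ∑ j ∈ Finset.range n, adv (step^[j] σ) ≤ 20 := by
  have hpi := pi_lt_four
  set θ := Complex.arg σ.2.2.2 - 2 * π with hθ
  have hl : Lifts σ θ := by
    have h1 := Complex.norm_mul_exp_arg_mul_I σ.2.2.2
    rw [hv.2] at h1
    unfold Lifts
    rw [hθ]
    push_cast
    rw [sub_mul, Complex.exp_sub, Complex.exp_two_pi_mul_I]
    simpa using h1.symm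
  have h0 : Lv σ θ := Or.inl (by linarith [Complex.arg_le_pi σ.2.2.2, pi_pos])
  have key : ∀ n, Lifts (step^[n] σ) (θ + ∑ j ∈ Finset.range n, adv (step^[j] σ)) ∧
      Lv (step^[n] σ) (θ + ∑ j ∈ Finset.range n, adv (step^[j] σ)) := by
    intro n
    induction n with
    | zero => simpa using ⟨hl, h0⟩
    | succ n ih =>
      rw [Finset.sum_range_succ, ← add_assoc, Function.iterate_succ_apply']
      exact ⟨ih.1.step, ih.2.step (hv.iterate n) ih.1⟩
  have := (key n).2.le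
  linarith [Complex.neg_pi_lt_arg σ.2.2.2]

/-- A step with small advance outside the escape region is a linear step. -/
lemma linger {σ : St} (hv : Valid σ) (ha : adv σ < 1 / 4) (he : σ.2.1 < 19 / 20) :
    nsq σ.2.2.1 < 9 ∧ (step σ).2.2.1 = L σ.2.2.1 ∧ (step σ).1 = stW (readout σ.2.2.1) ∧
      (step σ).2.1 = stH (readout σ.2.2.1) := by
  have h1 : σ.2.2.2.re ≤ 1 := (Complex.re_le_norm _).trans hv.2.le
  have h2 := cut_nonneg 8 9 (nsq σ.2.2.1)
  have h3 := cut_nonneg (7 / 8) (9 / 10) σ.2.1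
  rw [adv, nu_of_le he.le, mul_one] at ha
  have hτ : tau σ.2.2.2 = 0 := cut_eq_zero (by norm_num) (by linarith)
  have hN : nsq σ.2.2.1 < 9 :=
    lt_of_cut_ne_one (a := 8) (by norm_num) (by intro h; rw [h] at ha; linarith)
  have hh : σ.2.1 < 9 / 10 :=
    lt_of_cut_ne_one (a := 7 / 8) (by norm_num) (by intro h; rw [h] at ha; linarith)
  have hε : eps σ.2.1 = 0 := cut_eq_zero (by norm_num) hh.le
  have hZ : newZ σ = readout σ.2.2.1 := by simp [newZ, hτ, hε]
  refine ⟨hN, ?_, ?_, ?_⟩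
  · change newX σ = _
    rw [newX, nu_of_le he.le, kap_of_le hN.le, hτ]
    simp [blend]
  · rw [← hZ]
    exact newW_of_le hv (by linarith)
  · rw [← hZ]
    exact newH_of_le hv (by linarith)

lemma one_sub_re_le {σ : St} : 3 / 4 * (1 - σ.2.2.2.re) ≤ adv σ := by
  have := cut_nonneg 8 9 (nsq σ.2.2.1)
  have := mul_nonneg (cut_nonneg (7 / 8) (9 / 10) σ.2.1) (nu_nonneg σ.2.1)
  rw [adv]
  linarith

lemma esc_iterate {σ : St} (hv : Valid σ) (h : 19 / 20 ≤ σ.2.1) (k : ℕ) :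
    1 - (step^[k] σ).2.1 ≤ (1 / 400) ^ k / 20 := by
  induction k with
  | zero => simp only [Function.iterate_zero, id_eq, pow_zero]; linarith
  | succ k ih =>
    have h1 : ((1 : ℝ) / 400) ^ k ≤ 1 := pow_le_one₀ (by norm_num) (by norm_num)
    rw [Function.iterate_succ_apply']
    have := esc_step (hv.iterate k) (by linarith)
    rw [pow_succ]
    linarith

/-- Apart from a bounded number of times, each orbit is first near the point
`(0, -1, 0, 1)` and then near the point `(0, 1, 0, 1)`. -/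
theorem orbit_structure {η : ℝ} (hη : 0 < η) : ∃ C : ℕ, ∀ σ, Valid σ → ∀ n : ℕ,
    ∃ (Ev : Finset ℕ) (js : ℕ), js ≤ n ∧ Ev.card ≤ C ∧ ∀ j < n, j ∉ Ev →
      1 ≤ j ∧ 1 - (step^[j] σ).2.2.2.re ≤ η ∧
      (j < js → (step^[j] σ).1 = 0 ∧ (step^[j] σ).2.1 = -1 ∧ ‖(step^[j] σ).2.2.1‖ ≤ η) ∧
      (js ≤ j → 1 - (step^[j] σ).2.1 ≤ η ∧ (step^[j] σ).2.2.1 = 0) := by
  classical
  set δ := min (η / 2) (1 / 4) with hδ
  have hδ0 : 0 < δ := lt_min (by positivity) (by norm_num)
  obtain ⟨K, hK⟩ := exists_pow_lt_of_lt_one (show 0 < min η (1 / 2) / 48 by positivity)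
    (show (1 : ℝ) / 16 < 1 by norm_num)
  have hK1 : 48 * (1 / 16 : ℝ) ^ K ≤ η := by linarith [min_le_left η (1 / 2)]
  have hK2 : 48 * (1 / 16 : ℝ) ^ K ≤ 1 / 2 := by linarith [min_le_right η (1 / 2)]
  have hK0 : 1 ≤ K := by
    rcases Nat.eq_zero_or_pos K with rfl | h
    · norm_num at hK2
    · exact h
  refine ⟨(⌈20 / δ⌉₊ + 2) * (2 * K + 1), fun σ hv n => ?_⟩
  set Bad := (Finset.range (n + K)).filter fun i => δ ≤ adv (step^[i] σ) with hBad
  have hBadc : Bad.card ≤ ⌈20 / δ⌉₊ := by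
    have h1 : (Bad.card : ℝ) * δ ≤ ∑ i ∈ Bad, adv (step^[i] σ) := by
      rw [← nsmul_eq_mul]
      exact Finset.card_nsmul_le_sum _ _ _ fun i hi => (Finset.mem_filter.1 hi).2
    have h2 : ∑ i ∈ Bad, adv (step^[i] σ) ≤ ∑ i ∈ Finset.range (n + K), adv (step^[i] σ) :=
      Finset.sum_le_sum_of_subset_of_nonneg (Finset.filter_subset _ _)
        fun i _ _ => adv_nonneg (hv.iterate i)
    have h3 := sum_adv_le hv (n + K)
    have h4 : (Bad.card : ℝ) ≤ 20 / δ := by rw [le_div_iff₀ hδ0]; linarith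
    exact_mod_cast h4.trans (Nat.le_ceil _)
  obtain ⟨e, he1, he2⟩ : ∃ e : ℕ, (∀ i < e, (step^[i] σ).2.1 < 19 / 20) ∧
      (n + K ≤ e ∨ 19 / 20 ≤ (step^[e] σ).2.1) := by
    by_cases hE : ∃ j, 19 / 20 ≤ (step^[j] σ).2.1
    · exact ⟨Nat.find hE, fun i hi => not_le.1 (Nat.find_min hE hi), Or.inr (Nat.find_spec hE)⟩
    · push Not at hE
      exact ⟨n + K, fun i _ => hE i, Or.inl le_rfl⟩
  set A := insert 0 (insert e Bad) with hA
  refine ⟨A.biUnion fun i => Finset.Icc (i - K) (i + K), min n e, min_le_left _ _, ?_, ?_⟩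
  · refine Finset.card_biUnion_le.trans ((Finset.sum_le_card_nsmul _ _ (2 * K + 1)
      fun i _ => by rw [Nat.card_Icc]; omega).trans ?_)
    rw [smul_eq_mul]
    refine Nat.mul_le_mul_right _ ?_
    have := Finset.card_insert_le 0 (insert e Bad)
    have := Finset.card_insert_le e Bad
    rw [hA]
    omega
  intro j hj hjE
  have hfar : ∀ i, i ≤ j + K → j ≤ i + K → i ∉ A := by
    intro i h1 h2 hi
    exact hjE (Finset.mem_biUnion.2 ⟨i, hi, Finset.mem_Icc.2 ⟨by omega, h2⟩⟩)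
  have hj0 : K < j := by
    by_contra h
    exact hfar 0 (by omega) (by omega) (by simp [hA])
  have hje : j + K < e ∨ e + K < j := by
    by_contra h
    exact hfar e (by omega) (by omega) (by simp [hA])
  have hsmall : ∀ i, i < j + K → j ≤ i + K → adv (step^[i] σ) < δ := by
    intro i h1 h2
    by_contra h
    exact hfar i h1.le h2 (by
      simp only [hA, hBad, Finset.mem_insert, Finset.mem_filter, Finset.mem_range]
      exact Or.inr (Or.inr ⟨by omega, not_lt.1 h⟩))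
  refine ⟨by omega, ?_, fun hlt => ?_, fun hge => ?_⟩
  · have h1 := hsmall j (by omega) (by omega)
    have h2 := one_sub_re_le (σ := step^[j] σ)
    have h3 := min_le_left (η / 2) (1 / 4)
    linarith
  · obtain ⟨i, rfl⟩ : ∃ i, j = i + 1 := ⟨j - 1, by omega⟩
    have hl : ∀ k ≤ K, _ := fun k hk => linger (hv.iterate (i + k))
      ((hsmall (i + k) (by omega) (by omega)).trans_le (min_le_right _ _))
      (he1 (i + k) (by omega))
    have hn : ∀ k ≤ K, ‖(step^[i + k] σ).2.2.1‖ = 16 ^ k * ‖(step^[i] σ).2.2.1‖ := by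
      intro k hk
      induction k with
      | zero => simp
      | succ k ih =>
        rw [← add_assoc, Function.iterate_succ_apply', (hl k (by omega)).2.1, norm_L,
          ih (by omega)]
        ring
    have h3 : ‖(step^[i + K] σ).2.2.1‖ ≤ 3 := by
      have h4 := (norm_sq_le_nsq _).trans_lt (hl K le_rfl).1
      nlinarith [norm_nonneg (step^[i + K] σ).2.2.1]
    have h5 : ‖(step^[i] σ).2.2.1‖ ≤ 3 * (1 / 16) ^ K := by
      rw [hn K le_rfl] at h3
      rw [one_div, inv_pow, ← div_eq_mul_inv, le_div_iff₀ (by positivity)]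
      linarith
    have h6 := hl 0 (Nat.zero_le _)
    rw [add_zero, readout_small (by linarith)] at h6
    rw [Function.iterate_succ_apply']
    refine ⟨by rw [h6.2.2.1]; simp [stW], by rw [h6.2.2.2]; norm_num [stH], ?_⟩
    rw [h6.2.1, norm_L]
    linarith
  · have h1 : e ≤ j := by omega
    have h2 : 19 / 20 ≤ (step^[e] σ).2.1 := he2.resolve_left (by omega)
    obtain ⟨k, rfl⟩ : ∃ k, j = (k + 1 + 1) + e := ⟨j - e - 2, by omega⟩
    rw [Function.iterate_add_apply]
    constructor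
    · refine (esc_iterate (hv.iterate e) h2 _).trans ?_
      have h3 : ((1 : ℝ) / 400) ^ (k + 1 + 1) ≤ (1 / 16) ^ K :=
        (pow_le_pow_left₀ (by norm_num) (by norm_num) _).trans
          (pow_le_pow_of_le_one (by norm_num) (by norm_num) (by omega))
      have : 0 ≤ ((1 : ℝ) / 16) ^ K := by positivity
      linarith
    · rw [Function.iterate_succ_apply']
      apply newX_of_ge
      rw [Function.iterate_succ_apply']
      apply esc_step' ((hv.iterate e).iterate k)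
      have := esc_iterate (hv.iterate e) h2 k
      have h1 : ((1 : ℝ) / 400) ^ k ≤ 1 := pow_le_one₀ (by norm_num) (by norm_num)
      linarith

end Vale.Agent.P103
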