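import Vale.Agent.P103.Defs

/-!
A criterion for vanishing topological entropy: every orbit stays near a point `p` and then near
a point `q`, apart from a bounded number of exceptional times.
-/

open scoped ENNReal
open Filter Topology

noncomputable section

namespace Vale.Agent.P103

variable {X : Type} [MetricSpace X]

/-- The two-point shadowing property. -/
def TwoPoint (f : X → X) (p q : X) : Prop :=
  ∀ ε > 0, ∃ C : ℕ, ∀ (z : X) (n : ℕ), ∃ (Ev : Finset ℕ) (js : ℕ), js ≤ n ∧ Ev.card ≤ C ∧
    ∀ j < n, j ∉ Ev → (j < js → dist (f^[j] z) p ≤ ε) ∧ (js ≤ j → dist (f^[j] z) q ≤ ε)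

lemma card_small_subsets {α : Type*} [DecidableEq α] (A : Finset α) (C : ℕ) :
    (A.powerset.filter fun s => s.card ≤ C).card ≤ (C + 1) * (A.card + 1) ^ C := by
  have h : (A.powerset.filter fun s => s.card ≤ C) ⊆
      (Finset.range (C + 1)).biUnion fun i => A.powersetCard i := by
    intro s hs
    simp only [Finset.mem_filter, Finset.mem_powerset] at hs
    simp only [Finset.mem_biUnion, Finset.mem_range, Finset.mem_powersetCard]
    exact ⟨s.card, by omega, hs.1, rfl⟩
  refine (Finset.card_le_card h).trans (Finset.card_biUnion_le.trans ?_)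
  have : ∀ i ∈ Finset.range (C + 1), (A.powersetCard i).card ≤ (A.card + 1) ^ C := by
    intro i hi
    rw [Finset.card_powersetCard]
    have hi' : i ≤ C := by simpa [Nat.lt_succ_iff] using hi
    calc A.card.choose i ≤ A.card ^ i := Nat.choose_le_pow _ _
      _ ≤ (A.card + 1) ^ i := Nat.pow_le_pow_left (by omega) _
      _ ≤ (A.card + 1) ^ C := Nat.pow_le_pow_right (by omega) hi'
  refine (Finset.sum_le_card_nsmul _ _ _ this).trans ?_
  simp

lemma sep_card_le [CompactSpace X] {f : X → X} {p q : X} (h : TwoPoint f p q) {ε : ℝ}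
    (hε : 0 < ε) : ∃ K D : ℕ, ∀ (n : ℕ) (S : Finset X), IsSeparated f n ε S →
      S.card ≤ K * (n + 1) ^ D := by
  classical
  obtain ⟨C, hC⟩ := h (ε / 2) (by positivity)
  obtain ⟨F, hF⟩ : ∃ F : Finset X, ∀ x, ∃ y ∈ F, dist x y ≤ ε / 2 := by
    obtain ⟨t, -, ht, hcov⟩ := finite_cover_balls_of_compact (isCompact_univ (X := X))
      (half_pos hε)
    refine ⟨ht.toFinset, fun x => ?_⟩
    have := hcov (Set.mem_univ x)
    simp only [Set.mem_iUnion] at this
    obtain ⟨y, hy, hxy⟩ := this
    exact ⟨y, by simpa using hy, (Metric.mem_ball.1 hxy).le⟩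
  choose cen hcenF hcen using hF
  refine ⟨(C + 1) * (F.card + 1) ^ C, C + 1, fun n S hS => ?_⟩
  choose Ev js hjs hEv hnear using fun z => hC z n
  let code : X → ℕ × Finset (ℕ × X) := fun z =>
    (js z, ((Ev z).filter (· < n)).image fun j => (j, cen (f^[j] z)))
  let T : Finset (ℕ × Finset (ℕ × X)) := Finset.range (n + 1) ×ˢ
    ((Finset.range n ×ˢ F).powerset.filter fun s => s.card ≤ C)
  have hmaps : ∀ z ∈ S, code z ∈ T := by
    intro z _
    simp only [T, code, Finset.mem_product, Finset.mem_range, Finset.mem_filter,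
      Finset.mem_powerset]
    refine ⟨by have := hjs z; omega, ?_, ?_⟩
    · intro a ha
      simp only [Finset.mem_image, Finset.mem_filter] at ha
      obtain ⟨j, ⟨-, hj⟩, rfl⟩ := ha
      simp [hj, hcenF]
    · exact Finset.card_image_le.trans ((Finset.card_filter_le _ _).trans (hEv z))
  have key : ∀ z z', code z = code z' → ∀ j < n, j ∈ Ev z →
      j ∈ Ev z' ∧ cen (f^[j] z) = cen (f^[j] z') := by
    intro z z' hzz j hj hjE
    have h2 : (code z).2 = (code z').2 := by rw [hzz]
    have : (j, cen (f^[j] z)) ∈ (code z').2 := by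
      rw [← h2]
      simp only [code, Finset.mem_image, Finset.mem_filter]
      exact ⟨j, ⟨hjE, hj⟩, rfl⟩
    simp only [code, Finset.mem_image, Finset.mem_filter, Prod.mk.injEq] at this
    obtain ⟨i, ⟨hi, -⟩, rfl, h3⟩ := this
    exact ⟨hi, h3.symm⟩
  have hinj : Set.InjOn code S := by
    intro z hz z' hz' hzz
    by_contra hne
    obtain ⟨j, hj, hd⟩ := hS z hz z' hz' hne
    have h1 : js z = js z' := congrArg Prod.fst hzz
    have : dist (f^[j] z) (f^[j] z') ≤ ε := by
      by_cases hjE : j ∈ Ev z
      · obtain ⟨-, hc⟩ := key z z' hzz j hj hjE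
        have a1 := hcen (f^[j] z)
        have a2 := hcen (f^[j] z')
        rw [← hc] at a2
        have := dist_triangle_right (f^[j] z) (f^[j] z') (cen (f^[j] z))
        linarith
      · have hjE' : j ∉ Ev z' := fun h' => hjE (key z' z hzz.symm j hj h').1
        obtain ⟨a1, a2⟩ := hnear z j hj hjE
        obtain ⟨b1, b2⟩ := hnear z' j hj hjE'
        rw [← h1] at b1 b2
        rcases lt_or_ge j (js z) with hlt | hge
        · have := dist_triangle_right (f^[j] z) (f^[j] z') p
          linarith [a1 hlt, b1 hlt]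
        · have := dist_triangle_right (f^[j] z) (f^[j] z') q
          linarith [a2 hge, b2 hge]
    linarith
  have hcard := Finset.card_le_card_of_injOn code hmaps hinj
  refine hcard.trans ?_
  simp only [T, Finset.card_product, Finset.card_range]
  have h1 := card_small_subsets (Finset.range n ×ˢ F) C
  simp only [Finset.card_product, Finset.card_range] at h1
  have h2 : (n * F.card + 1) ^ C ≤ ((F.card + 1) * (n + 1)) ^ C :=
    Nat.pow_le_pow_left (by nlinarith) _
  calc (n + 1) * _ ≤ (n + 1) * ((C + 1) * ((F.card + 1) * (n + 1)) ^ C) :=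
        Nat.mul_le_mul_left _ (h1.trans (Nat.mul_le_mul_left _ h2))
    _ = _ := by rw [mul_pow]; ring

lemma expGrowthSup_poly (K D : ℕ) :
    ExpGrowth.expGrowthSup (fun n : ℕ => ((K * (n + 1) ^ D : ℕ) : ℝ≥0∞)) ≤ 0 := by
  rw [ExpGrowth.expGrowthSup_le_iff]
  intro b hb
  -- reduce to a real positive rate
  obtain ⟨a, ha0, hab⟩ : ∃ a : ℝ, 0 < a ∧ (a : EReal) ≤ b := by
    obtain ⟨a, h1, h2⟩ := EReal.lt_iff_exists_real_btwn.1 hb
    exact ⟨a, by exact_mod_cast h1, h2.le⟩
  have hlim : Tendsto (fun n : ℕ => (K * (n + 1) ^ D : ℝ) / Real.exp (a * n)) atTop (𝓝 0) := by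
    have h1 := (tendsto_exp_mul_div_rpow_atTop (D : ℝ) a ha0).inv_tendsto_atTop
    have h2 : Tendsto (fun n : ℕ => (n : ℝ) + 1) atTop atTop :=
      tendsto_atTop_add_const_right _ _ tendsto_natCast_atTop_atTop
    have h3 := (h1.comp h2).const_mul (K * Real.exp a)
    rw [mul_zero] at h3
    refine h3.congr fun n => ?_
    simp only [Function.comp, Pi.inv_apply, Real.rpow_natCast]
    rw [mul_add, mul_one, Real.exp_add]
    field_simp
  filter_upwards [hlim.eventually (gt_mem_nhds one_pos)] with n hn
  rw [div_lt_one (Real.exp_pos _)] at hn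
  calc ((K * (n + 1) ^ D : ℕ) : ℝ≥0∞) = ENNReal.ofReal (K * (n + 1) ^ D : ℝ) := by
        rw [← ENNReal.ofReal_natCast]; push_cast; rfl
    _ ≤ ENNReal.ofReal (Real.exp (a * n)) := ENNReal.ofReal_le_ofReal hn.le
    _ = EReal.exp ((a * n : ℝ) : EReal) := rfl
    _ ≤ EReal.exp (b * n) := by
        apply EReal.exp_monotone
        rw [EReal.coe_mul]
        exact mul_le_mul_of_nonneg_right hab (by exact_mod_cast Nat.zero_le n)

lemma sepNum_growth [CompactSpace X] [Nonempty X] {f : X → X} {p q : X} (h : TwoPoint f p q)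
    {ε : ℝ} (hε : 0 < ε) : ExpGrowth.expGrowthSup (fun n => sepNum f n ε) = 0 := by
  apply le_antisymm
  · obtain ⟨K, D, hKD⟩ := sep_card_le h hε
    refine le_trans (ExpGrowth.expGrowthSup_monotone ?_) (expGrowthSup_poly K D)
    intro n
    refine iSup₂_le fun S hS => ?_
    exact Nat.cast_le.2 (hKD n S hS)
  · rw [← ExpGrowth.expGrowthSup_const (b := 1) one_ne_zero ENNReal.one_ne_top]
    refine ExpGrowth.expGrowthSup_monotone fun n => ?_
    have hS : IsSeparated f n ε {p} := by
      intro x hx y hy hxy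
      simp only [Finset.mem_singleton] at hx hy
      exact absurd (hx.trans hy.symm) hxy
    exact le_iSup₂_of_le (f := fun (S : Finset X) (_ : IsSeparated f n ε S) => (S.card : ℝ≥0∞))
      {p} hS (by simp)

theorem topEntropy_eq_zero [CompactSpace X] [Nonempty X] {f : X → X} {p q : X}
    (h : TwoPoint f p q) : topEntropy f = 0 := by
  apply le_antisymm
  · exact iSup₂_le fun ε hε => (sepNum_growth h hε).le
  · exact le_iSup₂_of_le (f := fun (ε : ℝ) (_ : 0 < ε) =>
      limsup (fun n : ℕ => ENNReal.log (sepNum f n ε) / (n : EReal)) atTop) 1 one_pos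
      (sepNum_growth h one_pos).ge

theorem coverEntropy_eq_zero [CompactSpace X] [Nonempty X] {f : X → X} {p q : X}
    (h : TwoPoint f p q) : Dynamics.coverEntropy f Set.univ = 0 := by
  apply le_antisymm
  · rw [Dynamics.coverEntropy_eq_iSup_basis_netEntropyEntourage Metric.uniformity_basis_dist_le]
    refine iSup₂_le fun ε hε => ?_
    rw [← sepNum_growth h hε]
    refine ExpGrowth.expGrowthSup_monotone fun n => ?_
    simp only [Dynamics.netMaxcard, ENat.toENNReal_iSup]
    refine iSup₂_le fun S hS => ?_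
    have hS' : IsSeparated f n ε S := by
      intro x hx y hy hxy
      by_contra hcon
      push Not at hcon
      have hd := hS.2 hx hy hxy
      have h1 : y ∈ UniformSpace.ball x
          (Dynamics.dynEntourage f {p : X × X | dist p.1 p.2 ≤ ε} n) := by
        rw [Dynamics.mem_ball_dynEntourage]
        intro k hk
        exact hcon k hk
      have h2 : y ∈ UniformSpace.ball y
          (Dynamics.dynEntourage f {p : X × X | dist p.1 p.2 ≤ ε} n) := by
        rw [Dynamics.mem_ball_dynEntourage]
        intro k _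
        simpa [UniformSpace.ball] using hε.le
      exact Set.disjoint_left.1 hd h1 h2
    exact le_iSup₂_of_le (f := fun (S : Finset X) (_ : IsSeparated f n ε S) => (S.card : ℝ≥0∞))
      S hS' (by simp)
  · exact Dynamics.coverEntropy_nonneg f Set.univ_nonempty

end Vale.Agent.P103
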