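import Vale.Agent.P103.Sphere

/-!
Assembly of the counterexample.
-/

open scoped Manifold ContDiff ENNReal TensorProduct
open CategoryTheory AlgebraicTopology

noncomputable section

namespace Vale.Agent.P103

/-- The point `-1` of the circle. -/
def negOne : Circle := Circle.exp Real.pi

lemma negOne_coe : (negOne : ℂ) = -1 := by
  simp [negOne]

/-- The inclusion of a two-sphere slice. -/
def incl : C(S2, Mfd) := ⟨fun m => (m, top4, negOne), by fun_prop⟩

/-- The projection to the two-sphere. -/
def proj : C(Mfd, S2) := ⟨fun z => z.1, by fun_prop⟩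

lemma tau_incl (m : S2) : tau (coords (incl m)).2.2.2 = 1 := by
  change tau (negOne : ℂ) = 1
  rw [negOne_coe]
  exact cut_eq_one (by norm_num) (by norm_num)

lemma theMap_fst (z : Mfd) : (theMap z).1.1 = ofP (newW (coords z)) (newH (coords z)) := rfl

lemma theMap_snd_fst (z : Mfd) : (theMap z).2.1.1 = ofX (newX (coords z)) := rfl

lemma theMap_snd_snd (z : Mfd) : (theMap z).2.2 = z.2.2 * Circle.exp (adv (coords z)) := rfl

lemma incl_apply (m : S2) : incl m = (m, top4, negOne) := rfl

lemma theMap_incl_fst (m : S2) : (theMap (incl m)).1 = cubeS m := by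
  apply Subtype.ext
  rw [theMap_fst, newW_of_plain (Or.inl (tau_incl m)), newH_of_plain (Or.inl (tau_incl m)),
    cubeS_val]
  rfl

lemma norm_shrink (t : unitInterval) (σ : St) : ‖(1 - (t : ℝ)) • newX σ‖ ≤ 68 := by
  rw [norm_smul, Real.norm_eq_abs, abs_of_nonneg (sub_nonneg.2 t.2.2)]
  have := norm_newX_le σ
  have := t.2.1
  nlinarith [norm_nonneg (newX σ)]

/-- The four-sphere component of the homotopy. -/
def htyX (p : unitInterval × S2) : S4 :=
  ⟨ofX ((1 - (p.1 : ℝ)) • newX (coords (incl p.2))), ofX_mem (norm_shrink _ _)⟩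

/-- The circle component of the homotopy. -/
def htyS (p : unitInterval × S2) : Circle :=
  negOne * Circle.exp ((1 - (p.1 : ℝ)) * adv (coords (incl p.2)))

lemma htyX_val (t : unitInterval) (m : S2) :
    (htyX (t, m)).1 = ofX ((1 - (t : ℝ)) • newX (coords (incl m))) := rfl

lemma htyS_val (t : unitInterval) (m : S2) :
    htyS (t, m) = negOne * Circle.exp ((1 - (t : ℝ)) * adv (coords (incl m))) := rfl

lemma continuous_coords_incl : Continuous fun m => coords (incl m) :=
  contMDiff_coords.continuous.comp incl.continuous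

lemma continuous_htyX : Continuous htyX :=
  (continuous_ofX.comp ((continuous_const.sub
    (continuous_subtype_val.comp continuous_fst)).smul
      ((contDiff_newX.continuous.comp continuous_coords_incl).comp continuous_snd))).subtype_mk _

lemma continuous_htyS : Continuous htyS :=
  continuous_const.mul (Circle.exp.continuous.comp ((continuous_const.sub
    (continuous_subtype_val.comp continuous_fst)).mul
      ((contDiff_adv.continuous.comp continuous_coords_incl).comp continuous_snd)))

lemma hty_zero (m : S2) : (cubeS m, htyX (0, m), htyS (0, m)) = theMap (incl m) := by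
  have h1 : htyX (0, m) = (theMap (incl m)).2.1 := by
    apply Subtype.ext
    rw [htyX_val, theMap_snd_fst, Set.Icc.coe_zero, sub_zero, one_smul]
  have h2 : htyS (0, m) = (theMap (incl m)).2.2 := by
    rw [htyS_val, theMap_snd_snd, Set.Icc.coe_zero, sub_zero, one_mul, incl_apply]
  rw [h1, h2, ← theMap_incl_fst]

lemma top4_val : top4.1 = ofX 0 := rfl

lemma hty_one (m : S2) : (cubeS m, htyX (1, m), htyS (1, m)) = incl (cubeS m) := by
  have h1 : htyX (1, m) = top4 := by
    apply Subtype.ext
    rw [htyX_val, top4_val, Set.Icc.coe_one, sub_self, zero_smul]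
  have h2 : htyS (1, m) = negOne := by
    rw [htyS_val, Set.Icc.coe_one, sub_self, zero_mul, Circle.exp_zero, mul_one]
  rw [h1, h2, incl_apply]

lemma homotopic_incl : (theMapC.comp incl).Homotopic (incl.comp cubeS) :=
  ⟨⟨⟨fun p => (cubeS p.2, htyX p, htyS p),
    (cubeS.continuous.comp continuous_snd).prodMk (continuous_htyX.prodMk continuous_htyS)⟩,
    hty_zero, hty_one⟩⟩

theorem exists_eigenclass : HasEigenclass 2 theMapC 3 := by
  obtain ⟨c, hc0, hc⟩ := exists_sphere_class
  set c' : R0 ⟶ (Ch Mfd).homology 2 := c ≫ HomologicalComplex.homologyMap (chMap incl) 2 with hc'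
  have h1 : c' ≫ HomologicalComplex.homologyMap (chMap proj) 2 = c := by
    rw [hc', Category.assoc, ← HomologicalComplex.homologyMap_comp, ← chMap_comp]
    have : proj.comp incl = ContinuousMap.id S2 := rfl
    rw [this, chMap_id, HomologicalComplex.homologyMap_id, Category.comp_id]
  have h2 : c' ≫ HomologicalComplex.homologyMap (chMap theMapC) 2 = (3 : ℝ) • c' := by
    rw [hc', Category.assoc, ← HomologicalComplex.homologyMap_comp, ← chMap_comp,
      homologyMap_homotopic homotopic_incl, chMap_comp, HomologicalComplex.homologyMap_comp,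
      ← Category.assoc, hc, Linear.smul_comp]
  refine ⟨c'.hom (1 : ℝ), fun h0 => hc0 ?_, ?_⟩
  · have : c' = 0 := by
      apply ModuleCat.hom_ext
      apply LinearMap.ext_ring
      exact h0
    rw [← h1, this, Limits.zero_comp]
  · exact congrArg (fun g : R0 ⟶ (Ch Mfd).homology 2 => g.hom (1 : ℝ)) h2

lemma hasEigenvalue_baseChange {V : Type} [AddCommGroup V] [Module ℝ V] (T : Module.End ℝ V)
    {c : V} (hc : c ≠ 0) {a : ℝ} (h : T c = a • c) :
    Module.End.HasEigenvalue (LinearMap.baseChange ℂ T) (a : ℂ) := by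
  have h1 : (1 : ℂ) ⊗ₜ[ℝ] c ≠ 0 := by
    intro h0
    have := congrArg (fun x => TensorProduct.lid ℝ V
      (TensorProduct.map Complex.reLm LinearMap.id x)) h0
    simp at this
    exact hc this
  refine Module.End.hasEigenvalue_of_hasEigenvector (x := (1 : ℂ) ⊗ₜ[ℝ] c) ⟨?_, h1⟩
  rw [Module.End.mem_eigenspace_iff, LinearMap.baseChange_tmul, h, TensorProduct.tmul_smul,
    TensorProduct.smul_tmul', TensorProduct.smul_tmul']
  simp

lemma nonempty_Mfd : Nonempty Mfd := ⟨ptP⟩

theorem three_le_radius : 3 ≤ homologySpectralRadius 7 theMapC := by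
  obtain ⟨c, hc0, hc⟩ := exists_eigenclass
  have h := hasEigenvalue_baseChange _ hc0 hc
  refine le_iSup_of_le 2 (le_iSup_of_le (by norm_num) (le_iSup_of_le ((3 : ℝ) : ℂ)
    (le_iSup_of_le h ?_)))
  rw [← ofReal_norm]
  simp

/-- The model vector space. -/
abbrev E7 : Type :=
  EuclideanSpace ℝ (Fin 2) × EuclideanSpace ℝ (Fin 4) × EuclideanSpace ℝ (Fin 1)

lemma finrank_E7 : Module.finrank ℝ E7 = 7 := by
  simp [Module.finrank_prod]

lemma model_eq : 𝓘(ℝ, E7) = model := by
  rw [modelWithCornersSelf_prod, modelWithCornersSelf_prod]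

/-- The product atlas, seen as an atlas modelled on the vector space `E7`. -/
abbrev atlas7 : ChartedSpace E7 Mfd :=
  inferInstanceAs (ChartedSpace (ModelProd (EuclideanSpace ℝ (Fin 2))
    (ModelProd (EuclideanSpace ℝ (Fin 4)) (EuclideanSpace ℝ (Fin 1)))) Mfd)

lemma isManifold7 : letI := atlas7; IsManifold 𝓘(ℝ, E7) ∞ Mfd := by
  rw [model_eq]
  exact (inferInstance : IsManifold model ∞ Mfd)

lemma contMDiff7 : letI := atlas7; ContMDiff 𝓘(ℝ, E7) 𝓘(ℝ, E7) 1 theMapC := by
  rw [model_eq]
  exact contMDiff_theMap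

theorem not_entropyConjecture : ¬ EntropyConjecture := by
  intro h
  have := nonempty_Mfd
  have h1 := @h E7 _ _ _ Mfd _ _ _ atlas7 isManifold7 theMapC contMDiff7
  have h2 : topEntropy theMapC = 0 := topEntropy_eq_zero twoPoint_theMap
  rw [h2, finrank_E7, ENNReal.log_le_zero_iff] at h1
  have := three_le_radius.trans h1
  norm_num at this

theorem main :
    (∃ (E : Type) (_ : NormedAddCommGroup E) (_ : NormedSpace ℝ E) (_ : FiniteDimensional ℝ E)
      (M : Type) (_ : MetricSpace M) (_ : CompactSpace M) (_ : Nonempty M) (_ : ChartedSpace E M)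
      (_ : IsManifold 𝓘(ℝ, E) ∞ M) (f : C(M, M)),
      Module.finrank ℝ E = 7 ∧ Nonempty (M ≃ₜ unitSphere 2 × unitSphere 4 × Circle) ∧
      ContMDiff 𝓘(ℝ, E) 𝓘(ℝ, E) 1 f ∧ topEntropy f = 0 ∧ Dynamics.coverEntropy f Set.univ = 0 ∧
      HasEigenclass 2 f 3 ∧ 3 ≤ homologySpectralRadius 7 f) ∧ ¬ EntropyConjecture :=
  haveI := nonempty_Mfd
  ⟨⟨E7, inferInstance, inferInstance, inferInstance, Mfd, inferInstance, inferInstance,
    nonempty_Mfd, atlas7, isManifold7, theMapC, finrank_E7, ⟨Homeomorph.refl Mfd⟩, contMDiff7,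
    topEntropy_eq_zero twoPoint_theMap, coverEntropy_eq_zero twoPoint_theMap, exists_eigenclass,
    three_le_radius⟩, not_entropyConjecture⟩

end Vale.Agent.P103
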