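import Vale.Agent.P103.Dyn
import Vale.Agent.P103.Entropy

/-!
The map of `S² × S⁴ × S¹`: smoothness and vanishing entropy.
-/

open scoped Manifold ContDiff
open Filter Topology

noncomputable section

namespace Vale.Agent.P103

/-- Euclidean three-space. -/
abbrev E3 : Type := EuclideanSpace ℝ (Fin 3)

/-- Euclidean five-space. -/
abbrev E5 : Type := EuclideanSpace ℝ (Fin 5)

/-- The unit two-sphere. -/
abbrev S2 : Type := Metric.sphere (0 : E3) 1

/-- The unit four-sphere. -/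
abbrev S4 : Type := Metric.sphere (0 : E5) 1

/-- The closed manifold `S² × S⁴ × S¹`. -/
abbrev Mfd : Type := S2 × S4 × Circle

/-- Its standard model with corners. -/
abbrev model := (𝓡 2).prod ((𝓡 4).prod (𝓡 1))

/-- Horizontal coordinate on three-space. -/
def toW (v : E3) : ℂ := (v 0 : ℂ) + (v 1 : ℂ) * Complex.I

/-- The point of three-space with given horizontal coordinate and height. -/
def ofP (w : ℂ) (h : ℝ) : E3 := !₂[w.re, w.im, h]

/-- The folding projection of five-space to `ℂ²`. -/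
def toX (v : E5) : ℂ × ℂ :=
  (100 * ((v 0 : ℂ) + (v 1 : ℂ) * Complex.I), 100 * ((v 2 : ℂ) + (v 3 : ℂ) * Complex.I))

/-- The upper hemisphere parametrization. -/
def ofX (y : ℂ × ℂ) : E5 :=
  !₂[y.1.re / 100, y.1.im / 100, y.2.re / 100, y.2.im / 100, √(1 - nsq y / 10000)]

lemma toW_ofP (w : ℂ) (h : ℝ) : toW (ofP w h) = w := by
  simp [toW, ofP]

lemma ofP_two (w : ℂ) (h : ℝ) : ofP w h 2 = h := by
  simp [ofP]

lemma ofP_toW (v : E3) : ofP (toW v) (v 2) = v := by
  ext i
  fin_cases i <;> simp [toW, ofP]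

lemma toX_ofX (y : ℂ × ℂ) : toX (ofX y) = y := by
  ext
  · apply Complex.ext <;> simp [toX, ofX] <;> ring
  · apply Complex.ext <;> simp [toX, ofX] <;> ring

lemma normSq_complex (w : ℂ) : ‖w‖ ^ 2 = w.re ^ 2 + w.im ^ 2 := by
  rw [Complex.sq_norm, Complex.normSq_apply]
  ring

lemma norm_ofP_sq (w : ℂ) (h : ℝ) : ‖ofP w h‖ ^ 2 = ‖w‖ ^ 2 + h ^ 2 := by
  rw [EuclideanSpace.real_norm_sq_eq, normSq_complex]
  simp [ofP, Fin.sum_univ_three]

lemma ofP_mem {w : ℂ} {h : ℝ} (hv : ‖w‖ ^ 2 + h ^ 2 = 1) : ofP w h ∈ Metric.sphere (0 : E3) 1 := by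
  rw [mem_sphere_zero_iff_norm, ← sq_eq_sq₀ (norm_nonneg _) zero_le_one, norm_ofP_sq, hv, one_pow]

lemma S2_valid (m : S2) : ‖toW m.1‖ ^ 2 + m.1 2 ^ 2 = 1 := by
  rw [← norm_ofP_sq, ofP_toW, mem_sphere_zero_iff_norm.1 m.2, one_pow]

lemma nsq_lt {y : ℂ × ℂ} (hy : ‖y‖ ≤ 68) : 0 < 1 - nsq y / 10000 := by
  have := nsq_le y
  nlinarith [norm_nonneg y]

lemma ofX_mem {y : ℂ × ℂ} (hy : ‖y‖ ≤ 68) : ofX y ∈ Metric.sphere (0 : E5) 1 := by
  rw [mem_sphere_zero_iff_norm, ← sq_eq_sq₀ (norm_nonneg _) zero_le_one,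
    EuclideanSpace.real_norm_sq_eq]
  have := Real.sq_sqrt (nsq_lt hy).le
  simp only [ofX, Fin.sum_univ_five]
  simp only [Fin.isValue, Matrix.cons_val_zero, Matrix.cons_val_one, Matrix.cons_val, this]
  rw [nsq, normSq_complex, normSq_complex]
  ring

/-- Ambient coordinates of a point of the manifold. -/
def coords (z : Mfd) : St := (toW z.1.1, z.1.1 2, toX z.2.1.1, (z.2.2 : ℂ))

lemma coords_valid (z : Mfd) : Valid (coords z) := ⟨S2_valid z.1, z.2.2.norm_coe⟩

/-- The map. -/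
def theMap (z : Mfd) : Mfd :=
  (⟨ofP (newW (coords z)) (newH (coords z)), ofP_mem (new_valid (coords_valid z))⟩,
    ⟨ofX (newX (coords z)), ofX_mem (norm_newX_le _)⟩, z.2.2 * Circle.exp (adv (coords z)))

lemma coords_theMap (z : Mfd) : coords (theMap z) = step (coords z) := by
  simp only [coords, theMap, step, toW_ofP, ofP_two, toX_ofX, Circle.coe_mul, Circle.coe_exp]

lemma coords_iterate (z : Mfd) (n : ℕ) : coords (theMap^[n] z) = step^[n] (coords z) := by
  induction n with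
  | zero => rfl
  | succ n ih => rw [Function.iterate_succ_apply', Function.iterate_succ_apply', coords_theMap, ih]

lemma contDiff_toW : ContDiff ℝ 1 toW := by
  unfold toW
  fun_prop

lemma contDiff_toX : ContDiff ℝ 1 toX := by
  unfold toX
  fun_prop

lemma fact3 : Fact (Module.finrank ℝ E3 = 2 + 1) := ⟨by simp⟩

lemma fact5 : Fact (Module.finrank ℝ E5 = 4 + 1) := ⟨by simp⟩

lemma contMDiff_coords : ContMDiff model 𝓘(ℝ, St) 1 coords := by
  have := fact3
  have := fact5
  have h1 : ContMDiff model 𝓘(ℝ, E3) 1 fun z : Mfd => z.1.1 :=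
    (contMDiff_coe_sphere (E := E3) (n := 2)).comp contMDiff_fst
  have h2 : ContMDiff model 𝓘(ℝ, E5) 1 fun z : Mfd => z.2.1.1 :=
    (contMDiff_coe_sphere (E := E5) (n := 4)).comp (contMDiff_fst.comp contMDiff_snd)
  have h3 : ContMDiff model 𝓘(ℝ, ℂ) 1 fun z : Mfd => (z.2.2 : ℂ) :=
    haveI : Fact (Module.finrank ℝ ℂ = 1 + 1) := ⟨by simp⟩
    (contMDiff_coe_sphere (E := ℂ) (n := 1)).comp (contMDiff_snd.comp contMDiff_snd)
  have h4 : ContDiff ℝ 1 fun v : E3 => v 2 := by fun_prop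
  exact (contDiff_toW.comp_contMDiff h1).prodMk_space ((h4.comp_contMDiff h1).prodMk_space
    ((contDiff_toX.comp_contMDiff h2).prodMk_space h3))

lemma contDiff_ofP_new : ContDiff ℝ 1 fun σ => ofP (newW σ) (newH σ) := by
  have h1 := contDiff_newW
  have h2 := contDiff_newH
  rw [contDiff_euclidean]
  intro i
  fin_cases i
  · exact contDiff_re h1
  · exact contDiff_im h1
  · exact h2

lemma contDiff_ofX_new : ContDiff ℝ 1 fun σ => ofX (newX σ) := by
  have h1 := contDiff_newX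
  have h2 : ContDiff ℝ 1 fun σ => √(1 - nsq (newX σ) / 10000) :=
    ContDiff.sqrt (by fun_prop) fun σ => (nsq_lt (norm_newX_le σ)).ne'
  rw [contDiff_euclidean]
  intro i
  fin_cases i
  · exact (contDiff_re h1.fst).div_const 100
  · exact (contDiff_im h1.fst).div_const 100
  · exact (contDiff_re h1.snd).div_const 100
  · exact (contDiff_im h1.snd).div_const 100
  · exact h2

theorem contMDiff_theMap : ContMDiff model model 1 theMap := by
  have := fact3
  have := fact5
  refine ContMDiff.prodMk ?_ (ContMDiff.prodMk ?_ ?_)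
  · exact ContMDiff.codRestrict_sphere (n := 2) (contDiff_ofP_new.comp_contMDiff contMDiff_coords)
      fun z => ofP_mem (new_valid (coords_valid z))
  · exact ContMDiff.codRestrict_sphere (n := 4) (contDiff_ofX_new.comp_contMDiff contMDiff_coords)
      fun z => ofX_mem (norm_newX_le _)
  · exact (contMDiff_snd.comp contMDiff_snd).mul
      (contMDiff_circleExp.comp (contDiff_adv.comp_contMDiff contMDiff_coords))

/-- The map as a continuous map. -/
def theMapC : C(Mfd, Mfd) := ⟨theMap, contMDiff_theMap.continuous⟩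

/-- The north pole of the four-sphere. -/
def top4 : S4 := ⟨ofX 0, ofX_mem (by simp)⟩

/-- The saddle fixed point. -/
def ptP : Mfd := (⟨ofP 0 (-1), ofP_mem (by simp)⟩, top4, 1)

/-- The second fixed point. -/
def ptQ : Mfd := (⟨ofP 0 1, ofP_mem (by simp)⟩, top4, 1)

lemma dist_circle_one (s : Circle) : dist s 1 ^ 2 = 2 * (1 - (s : ℂ).re) := by
  have h1 := normSq_complex (s : ℂ)
  rw [s.norm_coe] at h1
  change dist (s : ℂ) 1 ^ 2 = _
  rw [Complex.dist_eq, normSq_complex]
  simp only [Complex.sub_re, Complex.one_re, Complex.sub_im, Complex.one_im]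
  nlinarith

lemma dist_north (m : S2) : dist m.1 (ofP 0 1) ^ 2 = 2 * (1 - m.1 2) := by
  have h1 := S2_valid m
  have h2 : m.1 - ofP 0 1 = ofP (toW m.1) (m.1 2 - 1) := by
    ext i
    fin_cases i <;> simp [toW, ofP]
  rw [dist_eq_norm, h2, norm_ofP_sq]
  nlinarith

lemma continuous_ofX : Continuous ofX := by
  have h1 : Continuous nsq := (contDiff_nsq contDiff_id).continuous
  unfold ofX
  fun_prop

theorem twoPoint_theMap : TwoPoint theMap ptP ptQ := by
  intro ε hε
  obtain ⟨η1, hη1, h1⟩ := Metric.continuousAt_iff.1 (continuous_ofX.continuousAt (x := 0)) ε hε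
  set η := min (η1 / 2) (ε ^ 2 / 2) with hη
  have hη0 : 0 < η := lt_min (by positivity) (by positivity)
  have hηa : η ≤ η1 / 2 := min_le_left _ _
  have hηb : η ≤ ε ^ 2 / 2 := min_le_right _ _
  obtain ⟨C, hC⟩ := orbit_structure hη0
  refine ⟨C, fun z n => ?_⟩
  obtain ⟨Ev, js, hjs, hEv, h⟩ := hC (coords z) (coords_valid z) n
  refine ⟨Ev, js, hjs, hEv, fun j hj hjE => ?_⟩
  obtain ⟨hj1, hs, hP, hQ⟩ := h j hj hjE
  rw [← coords_iterate] at hs hP hQ
  have hc : dist (theMap^[j] z).2.2 1 ≤ ε := by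
    have h2 := dist_circle_one (theMap^[j] z).2.2
    have h3 : 1 - ((theMap^[j] z).2.2 : ℂ).re ≤ η := hs
    exact (sq_le_sq₀ dist_nonneg hε.le).1 (by linarith)
  have hx : ‖(coords (theMap^[j] z)).2.2.1‖ ≤ η → dist (theMap^[j] z).2.1 top4 ≤ ε := by
    obtain ⟨i, rfl⟩ : ∃ i, j = i + 1 := ⟨j - 1, by omega⟩
    rw [Function.iterate_succ_apply', coords_theMap]
    intro h2
    exact (h1 (by rw [dist_zero_right]; exact h2.trans_lt (by linarith))).le
  constructor
  · intro hlt
    obtain ⟨a1, a2, a3⟩ := hP hlt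
    have h2 : (theMap^[j] z).1 = ptP.1 := by
      apply Subtype.ext
      rw [← ofP_toW (theMap^[j] z).1.1]
      exact congrArg₂ ofP a1 a2
    rw [Prod.dist_eq, Prod.dist_eq, h2, dist_self]
    exact max_le hε.le (max_le (hx a3) hc)
  · intro hge
    obtain ⟨a1, a2⟩ := hQ hge
    have h2 : dist (theMap^[j] z).1 ptQ.1 ≤ ε := by
      have h3 := dist_north (theMap^[j] z).1
      have h4 : 1 - (theMap^[j] z).1.1 2 ≤ η := a1
      exact (sq_le_sq₀ dist_nonneg hε.le).1 (h3.trans_le (by linarith))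
    rw [Prod.dist_eq, Prod.dist_eq]
    exact max_le h2 (max_le (hx (by rw [a2]; simpa using hη0.le)) hc)

end Vale.Agent.P103
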