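import Vale.Agent.P103.Chains

/-!
A nonzero class in `H_2(S²; ℝ)` which is multiplied by `3` under `ζ ↦ ζ^3`.
-/

open CategoryTheory AlgebraicTopology Simplicial Limits Opposite

noncomputable section

namespace Vale.Agent.P103

lemma pullback_alpha {Y : Type} [TopologicalSpace Y] (τ : C(Y, S2)) (v : C(Y, ℂ × ℂ))
    (h : ∀ y, Over (v y) (τ y)) :
    (chMap τ).f 2 ≫ coch alpha =
      (Ch Y).d 2 1 ≫ coch fun ρ : C(Dl 1, Y) => beta (τ.comp ρ) fun t => v (ρ t) := by
  apply ch_ext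
  intro σ
  rw [← Category.assoc, ← Category.assoc, sx_map, sx_coch, sx_d_two, Preadditive.add_comp,
    Preadditive.sub_comp, sx_coch, sx_coch, sx_coch,
    alpha_eq (τ.comp σ) (v := fun t => v (σ t)) (by fun_prop) fun t => h _, add_smul, sub_smul]
  rfl

lemma d_alpha : (Ch S2).d 3 2 ≫ coch alpha = 0 := by
  apply ch_ext
  intro τ
  have h1 : sx τ = sx (ContinuousMap.id (Dl 3)) ≫ (chMap τ).f 3 := by
    rw [sx_map]
    rfl
  rw [h1, Category.assoc, (chMap τ).comm_assoc 3 2, pullback_alpha τ (lift τ) (lift_over τ),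
    HomologicalComplex.d_comp_d_assoc, zero_comp, comp_zero, comp_zero]

lemma continuous_ofP {A : Type*} [TopologicalSpace A] {w : A → ℂ} {h : A → ℝ}
    (hw : Continuous w) (hh : Continuous h) : Continuous fun a => ofP (w a) (h a) := by
  unfold ofP
  fun_prop

lemma continuous_stW : Continuous stW := (contDiff_stW contDiff_id).continuous

lemma continuous_stH : Continuous stH := (contDiff_stH contDiff_id).continuous

/-- Chart around the south pole. -/
def stP : C(ℂ, S2) :=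
  ⟨fun ζ => ⟨ofP (stW ζ) (stH ζ), ofP_mem (st_valid ζ)⟩,
    (continuous_ofP continuous_stW continuous_stH).subtype_mk _⟩

/-- Chart around the north pole. -/
def stM : C(ℂ, S2) :=
  ⟨fun ζ => ⟨ofP (stW ζ) (-stH ζ), ofP_mem (by rw [neg_sq]; exact st_valid ζ)⟩,
    (continuous_ofP continuous_stW continuous_stH.neg).subtype_mk _⟩

/-- The cubing map of the sphere. -/
def cubeS : C(S2, S2) :=
  ⟨fun m => ⟨ofP (cubeW (toW m.1) (m.1 2)) (cubeH (m.1 2)), ofP_mem (cube_valid (S2_valid m))⟩, by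
    have h4 : ContDiff ℝ 1 fun v : E3 => v 2 := by fun_prop
    exact (continuous_ofP
      ((contDiff_cubeW contDiff_toW h4).continuous.comp continuous_subtype_val)
      ((contDiff_cubeH h4).continuous.comp continuous_subtype_val)).subtype_mk _⟩

/-- The cubing map of the plane. -/
def cubeC : C(ℂ, ℂ) := ⟨fun ζ => ζ ^ 3, by fun_prop⟩

lemma cube_den (ζ : ℂ) :
    1 + 3 * stH ζ ^ 2 = 4 * (‖ζ ^ 3‖ ^ 2 + 1) / (‖ζ‖ ^ 2 + 1) ^ 3 := by
  have h : 0 < ‖ζ‖ ^ 2 + 1 := by positivity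
  rw [stH, norm_pow]
  field_simp
  ring

lemma cubeW_st (ζ : ℂ) {h : ℝ} (hh : h ^ 2 = stH ζ ^ 2) : cubeW (stW ζ) h = stW (ζ ^ 3) := by
  have h0 : 0 < ‖ζ‖ ^ 2 + 1 := by positivity
  have h1 : 0 < ‖ζ ^ 3‖ ^ 2 + 1 := by positivity
  rw [cubeW, hh, cube_den, stW, stW, mul_pow, ← mul_assoc, ← Complex.ofReal_pow,
    ← Complex.ofReal_mul]
  congr 2
  field_simp
  ring

lemma cubeH_st (ζ : ℂ) : cubeH (stH ζ) = stH (ζ ^ 3) := by
  have h0 : 0 < ‖ζ‖ ^ 2 + 1 := by positivity
  have h1 : 0 < ‖ζ ^ 3‖ ^ 2 + 1 := by positivity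
  rw [cubeH, cube_den, stH, stH]
  field_simp
  rw [norm_pow]
  ring

lemma cubeH_neg (h : ℝ) : cubeH (-h) = -cubeH h := by
  rw [cubeH, cubeH]
  ring

lemma cubeS_val (m : S2) : (cubeS m).1 = ofP (cubeW (toW m.1) (m.1 2)) (cubeH (m.1 2)) := rfl

lemma stP_val (ζ : ℂ) : (stP ζ).1 = ofP (stW ζ) (stH ζ) := rfl

lemma stM_val (ζ : ℂ) : (stM ζ).1 = ofP (stW ζ) (-stH ζ) := rfl

lemma cubeC_apply (ζ : ℂ) : cubeC ζ = ζ ^ 3 := rfl

lemma cubeS_stP : cubeS.comp stP = stP.comp cubeC := by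
  ext1 ζ
  apply Subtype.ext
  rw [ContinuousMap.comp_apply, ContinuousMap.comp_apply, cubeS_val, stP_val, stP_val,
    cubeC_apply, toW_ofP, ofP_two, cubeW_st ζ rfl, cubeH_st]

lemma cubeS_stM : cubeS.comp stM = stM.comp cubeC := by
  ext1 ζ
  apply Subtype.ext
  rw [ContinuousMap.comp_apply, ContinuousMap.comp_apply, cubeS_val, stM_val, stM_val,
    cubeC_apply, toW_ofP, ofP_two, cubeW_st ζ (neg_sq _), cubeH_neg, cubeH_st]

lemma stP_eq_stM {ζ : ℂ} (h : ‖ζ‖ = 1) : stP ζ = stM ζ := by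
  have : stH ζ = 0 := by rw [stH, h]; norm_num
  apply Subtype.ext
  change ofP _ (stH ζ) = ofP _ (-stH ζ)
  rw [this, neg_zero]

lemma st_aux1 (ζ : ℂ) : (1 - (stH ζ : ℂ)) * ζ = stW ζ := by
  rw [stH, stW]
  push_cast
  ring

lemma st_aux2 (ζ : ℂ) : 1 + (stH ζ : ℂ) = stW ζ * (starRingEnd ℂ) ζ := by
  have h0 : 0 < ‖ζ‖ ^ 2 + 1 := by positivity
  rw [stW, mul_assoc, Complex.mul_conj, Complex.normSq_eq_norm_sq, ← Complex.ofReal_mul,
    ← Complex.ofReal_one, ← Complex.ofReal_add, stH]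
  congr 1
  field_simp
  ring

lemma over_stP (ζ : ℂ) : Over (ζ, 1) (stP ζ) := by
  refine ⟨by simp, ?_, ?_⟩
  · change (1 - ((ofP _ _ 2 : ℝ) : ℂ)) * ζ = toW (ofP _ _) * 1
    rw [toW_ofP, ofP_two, st_aux1, mul_one]
  · change (1 + ((ofP _ _ 2 : ℝ) : ℂ)) * 1 = (starRingEnd ℂ) (toW (ofP _ _)) * ζ
    rw [toW_ofP, ofP_two, mul_one]
    have := congrArg (starRingEnd ℂ) (st_aux2 ζ)
    simpa using this

lemma over_stM (ζ : ℂ) : Over (1, (starRingEnd ℂ) ζ) (stM ζ) := by
  refine ⟨by simp, ?_, ?_⟩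
  · change (1 - ((ofP _ _ 2 : ℝ) : ℂ)) * 1 = toW (ofP _ _) * (starRingEnd ℂ) ζ
    rw [toW_ofP, ofP_two, mul_one, ← st_aux2]
    push_cast
    ring
  · change (1 + ((ofP _ _ 2 : ℝ) : ℂ)) * (starRingEnd ℂ) ζ = (starRingEnd ℂ) (toW (ofP _ _)) * 1
    rw [toW_ofP, ofP_two, mul_one, ← st_aux1]
    simp [sub_eq_add_neg]

@[fun_prop]
lemma continuous_coord {n : ℕ} (i : Fin (n + 1)) : Continuous fun t : Dl n => t.1 i :=
  (continuous_apply i).comp continuous_subtype_val

/-- The loop winding `k` times. -/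
def loop (k : ℕ) : C(Dl 1, ℂ) :=
  ⟨fun t => Complex.exp (((2 * Real.pi * (k * t.1 1) : ℝ) : ℂ) * Complex.I), by fun_prop⟩

/-- A triangle relating three loops. -/
def tri (k l : ℕ) : C(Dl 2, ℂ) :=
  ⟨fun t => Complex.exp (((2 * Real.pi * (k * t.1 1 + (k + l) * t.1 2) : ℝ) : ℂ) * Complex.I),
    by fun_prop⟩

lemma face_apply {n : ℕ} (i : Fin (n + 2)) (s : Dl n) (j : Fin (n + 2)) :
    (face i s).1 j = ∑ x, if i.succAbove x = j then s.1 x else 0 := by
  change FunOnFinite.linearMap ℝ ℝ i.succAbove s.1 j = _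
  rw [FunOnFinite.linearMap_apply_apply, Finset.sum_filter]

lemma tri_face0 (k l : ℕ) : (tri k l).comp (face 0) = loop l := by
  ext s
  have h0 : s.1 0 + s.1 1 = 1 := stdSimplex.add_eq_one s
  have h1 : (face 0 s).1 1 = s.1 0 := by
    rw [face_apply, Fin.sum_univ_two, if_pos (by decide), if_neg (by decide), add_zero]
  have h2 : (face 0 s).1 2 = s.1 1 := by
    rw [face_apply, Fin.sum_univ_two, if_neg (by decide), if_pos (by decide), zero_add]
  change Complex.exp _ = Complex.exp _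
  rw [h1, h2, Complex.exp_eq_exp_iff_exists_int]
  refine ⟨k, ?_⟩
  have : s.1 0 = 1 - s.1 1 := by linarith
  rw [this]
  push_cast
  ring

lemma tri_face1 (k l : ℕ) : (tri k l).comp (face 1) = loop (k + l) := by
  ext s
  have h1 : (face 1 s).1 1 = 0 := by
    rw [face_apply, Fin.sum_univ_two, if_neg (by decide), if_neg (by decide), add_zero]
  have h2 : (face 1 s).1 2 = s.1 1 := by
    rw [face_apply, Fin.sum_univ_two, if_neg (by decide), if_pos (by decide), zero_add]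
  change Complex.exp _ = Complex.exp _
  rw [h1, h2]
  push_cast
  ring_nf

lemma tri_face2 (k l : ℕ) : (tri k l).comp (face 2) = loop k := by
  ext s
  have h1 : (face 2 s).1 1 = s.1 1 := by
    rw [face_apply, Fin.sum_univ_two, if_neg (by decide), if_pos (by decide), zero_add]
  have h2 : (face 2 s).1 2 = 0 := by
    rw [face_apply, Fin.sum_univ_two, if_neg (by decide), if_neg (by decide), add_zero]
  change Complex.exp _ = Complex.exp _
  rw [h1, h2]
  push_cast
  ring_nf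

lemma norm_tri (k l : ℕ) (t : Dl 2) : ‖tri k l t‖ = 1 := Complex.norm_exp_ofReal_mul_I _

lemma norm_loop (k : ℕ) (t : Dl 1) : ‖loop k t‖ = 1 := Complex.norm_exp_ofReal_mul_I _

lemma loop_closed : (loop 1).comp (face 0) = (loop 1).comp (face 1) := by
  ext s
  have h0 : s.1 0 = 1 := by simpa using s.2.2
  have h1 : (face 0 s).1 1 = 1 := by
    rw [face_apply, Fin.sum_univ_one, if_pos (by decide), h0]
  have h2 : (face 1 s).1 1 = 0 := by
    rw [face_apply, Fin.sum_univ_one, if_neg (by decide)]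
  change Complex.exp _ = Complex.exp _
  rw [h1, h2, Complex.exp_eq_exp_iff_exists_int]
  refine ⟨1, ?_⟩
  push_cast
  ring

lemma cube_loop : cubeC.comp (loop 1) = loop 3 := by
  ext s
  change Complex.exp _ ^ 3 = Complex.exp _
  rw [← Complex.exp_nat_mul]
  push_cast
  ring_nf

lemma wind_loop : wind (loop 1) = 2 * Real.pi := by
  rw [wind_eq (φ := loop 1)
    (l := fun t => ((2 * Real.pi * ((1 : ℕ) * t.1 1) : ℝ) : ℂ) * Complex.I)
    (by fun_prop) fun t => rfl]
  simp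

theorem exists_sphere_class : ∃ c : R0 ⟶ (Ch S2).homology 2, c ≠ 0 ∧
    c ≫ HomologicalComplex.homologyMap (chMap cubeS) 2 = (3 : ℝ) • c := by
  obtain ⟨a, ha⟩ := exists_fill 0 (sx (loop 1)) (by rw [sx_d_one, loop_closed, sub_self])
  have ha : a ≫ (Ch ℂ).d 2 1 = sx (loop 1) := ha
  have hloop : stP.comp (loop 1) = stM.comp (loop 1) := by
    ext1 t
    exact stP_eq_stM (norm_loop 1 t)
  have htri : ∀ k l, stP.comp (tri k l) = stM.comp (tri k l) := by
    intro k l
    ext1 t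
    exact stP_eq_stM (norm_tri k l t)
  set z : R0 ⟶ (Ch S2).X 2 := a ≫ (chMap stP).f 2 - a ≫ (chMap stM).f 2 with hz
  have hzd : z ≫ (Ch S2).d 2 1 = 0 := by
    rw [hz, Preadditive.sub_comp, Category.assoc, Category.assoc, (chMap stP).comm,
      (chMap stM).comm, ← Category.assoc, ← Category.assoc, ha, sx_map, sx_map, hloop, sub_self]
  refine ⟨cls z hzd, cls_ne_zero z hzd (coch alpha) d_alpha ?_, ?_⟩
  · let vP : C(ℂ, ℂ × ℂ) := ⟨fun ζ => (ζ, 1), by fun_prop⟩
    let vM : C(ℂ, ℂ × ℂ) := ⟨fun ζ => (1, (starRingEnd ℂ) ζ), by fun_prop⟩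
    rw [hz, Preadditive.sub_comp, Category.assoc, Category.assoc,
      pullback_alpha stP vP over_stP, pullback_alpha stM vM over_stM, ← Category.assoc,
      ← Category.assoc, ha, sx_coch, sx_coch, hloop,
      beta_change (stM.comp (loop 1)) (v := fun t => vM (loop 1 t)) (v' := fun t => vP (loop 1 t))
        (by fun_prop) (by fun_prop) (fun t => over_stM _)
        (fun t => by rw [← hloop]; exact over_stP _), ← sub_smul, add_sub_cancel_left]
    have h1 : (fun t => rat (vM (loop 1 t)) (vP (loop 1 t))) = loop 1 := by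
      funext t
      have h2 : vP (loop 1 t) = loop 1 t • vM (loop 1 t) := by
        ext
        · simp [vP, vM]
        · simp [vP, vM, Complex.mul_conj, Complex.normSq_eq_norm_sq, norm_loop]
      rw [h2, rat_smul (v := vM (loop 1 t)) (over_stM _).1]
    rw [h1, wind_loop]
    intro h0
    have h3 := congrArg (fun g : R0 ⟶ R0 => g.hom (1 : ℝ)) h0
    simp at h3
  · obtain ⟨b, hb⟩ := exists_fill 1
      (a ≫ (chMap cubeC).f 2 - (3 : ℝ) • a + sx (tri 1 1) + sx (tri 2 1)) (by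
        rw [Preadditive.add_comp, Preadditive.add_comp, Preadditive.sub_comp, Category.assoc,
          (chMap cubeC).comm, ← Category.assoc, Linear.smul_comp, ha, sx_map, cube_loop,
          sx_d_two, sx_d_two, tri_face0, tri_face1, tri_face2, tri_face0, tri_face1, tri_face2]
        module)
    have hb : b ≫ (Ch ℂ).d 3 2 =
      a ≫ (chMap cubeC).f 2 - (3 : ℝ) • a + sx (tri 1 1) + sx (tri 2 1) := hb
    refine cls_map z hzd cubeS 3 (b ≫ (chMap stP).f 3 - b ≫ (chMap stM).f 3) ?_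
    have e1 : (chMap stP).f 2 ≫ (chMap cubeS).f 2 = (chMap cubeC).f 2 ≫ (chMap stP).f 2 := by
      rw [← HomologicalComplex.comp_f, ← HomologicalComplex.comp_f, ← chMap_comp, ← chMap_comp,
        cubeS_stP]
    have e2 : (chMap stM).f 2 ≫ (chMap cubeS).f 2 = (chMap cubeC).f 2 ≫ (chMap stM).f 2 := by
      rw [← HomologicalComplex.comp_f, ← HomologicalComplex.comp_f, ← chMap_comp, ← chMap_comp,
        cubeS_stM]
    rw [hz]
    simp only [Preadditive.sub_comp, Category.assoc, e1, e2, (chMap stP).comm, (chMap stM).comm]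
    simp only [← Category.assoc, hb, Preadditive.add_comp, Preadditive.sub_comp, sx_map, htri,
      Linear.smul_comp]
    module

end Vale.Agent.P103
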