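import Vale.Agent.P103.Telescope

/-!
The formulas of the map in ambient coordinates `(w, h, x, s)`.
-/

open Filter Topology

noncomputable section

namespace Vale.Agent.P103

/-- Ambient coordinates: `(w, h)` on the 2-sphere, `x ∈ ℂ²`, `s` on the circle. -/
abbrev St : Type := ℂ × ℝ × (ℂ × ℂ) × ℂ

/-- Modified denominator of the stereographic coordinate. -/
def den (h : ℝ) : ℝ := (1 - h) * (1 - cut (24 / 25) (49 / 50) h) + cut (24 / 25) (49 / 50) h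

lemma den_pos (h : ℝ) : 0 < den h := by
  have h0 := cut_nonneg (24 / 25) (49 / 50) h
  have h1 := cut_le_one (24 / 25) (49 / 50) h
  rcases le_or_gt (49 / 50) h with h2 | h2
  · rw [den, cut_eq_one (by norm_num) h2]
    norm_num
  · rw [den]
    nlinarith

lemma den_of_le {h : ℝ} (hh : h ≤ 24 / 25) : den h = 1 - h := by
  rw [den, cut_eq_zero (by norm_num) hh]
  ring

/-- Stereographic coordinate (cut off near the north pole). -/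
def zeta (w : ℂ) (h : ℝ) : ℂ := (((den h)⁻¹ : ℝ) : ℂ) * w

/-- Inverse stereographic projection, horizontal part. -/
def stW (ζ : ℂ) : ℂ := ((2 * (‖ζ‖ ^ 2 + 1)⁻¹ : ℝ) : ℂ) * ζ

/-- Inverse stereographic projection, height. -/
def stH (ζ : ℂ) : ℝ := 1 - 2 * (‖ζ‖ ^ 2 + 1)⁻¹

/-- The map `ζ ↦ ζ^3` of the sphere, horizontal part. -/
def cubeW (w : ℂ) (h : ℝ) : ℂ := (((1 + 3 * h ^ 2)⁻¹ : ℝ) : ℂ) * w ^ 3

/-- The map `ζ ↦ ζ^3` of the sphere, height. -/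
def cubeH (h : ℝ) : ℝ := (1 + 3 * h ^ 2)⁻¹ * (3 * h + h ^ 3)

/-- Plainness of the circle coordinate. -/
def tau (s : ℂ) : ℝ := cut 0 (1 / 2) (-s.re)

/-- Escape cutoff. -/
def eps (h : ℝ) : ℝ := cut (9 / 10) (19 / 20) h

/-- Cutoff near the north pole. -/
def nu (h : ℝ) : ℝ := 1 - cut (19 / 20) (24 / 25) h

/-- Squared Euclidean norm on `ℂ²`. -/
def nsq (x : ℂ × ℂ) : ℝ := ‖x.1‖ ^ 2 + ‖x.2‖ ^ 2

/-- Cutoff for large `x`. -/
def kap (x : ℂ × ℂ) : ℝ := 1 - cut 9 10 (nsq x)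

/-- The advance of the circle coordinate. -/
def adv (σ : St) : ℝ :=
  3 / 4 * (1 - σ.2.2.2.re) + 1 / 4 * cut 8 9 (nsq σ.2.2.1) +
    1 / 4 * (cut (7 / 8) (9 / 10) σ.2.1 * nu σ.2.1)

/-- New stereographic coordinate. -/
def newZ (σ : St) : ℂ :=
  zeta σ.1 σ.2.1 ^ 3 + (((1 - tau σ.2.2.2) * (1 - eps σ.2.1) : ℝ) : ℂ) *
    (readout σ.2.2.1 - zeta σ.1 σ.2.1 ^ 3)

/-- New horizontal coordinate. -/
def newW (σ : St) : ℂ := cubeW σ.1 σ.2.1 + (stW (newZ σ) - stW (zeta σ.1 σ.2.1 ^ 3))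

/-- New height. -/
def newH (σ : St) : ℝ := cubeH σ.2.1 + (stH (newZ σ) - stH (zeta σ.1 σ.2.1 ^ 3))

/-- Radial interpolation. -/
def blend (t : ℝ) (ζ : ℂ) : ℂ := (((1 - t) + t * ‖ζ‖ ^ 2 / 4 : ℝ) : ℂ) * ζ

/-- New `x` coordinate. -/
def newX (σ : St) : ℂ × ℂ :=
  nu σ.2.1 • (tel1 (blend (tau σ.2.2.2) (zeta σ.1 σ.2.1)) +
    (1 - tau σ.2.2.2) • (kap σ.2.2.1 • L σ.2.2.1 - tel1 (zeta σ.1 σ.2.1)))

/-- One step of the dynamics in ambient coordinates. -/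
def step (σ : St) : St :=
  (newW σ, newH σ, newX σ, σ.2.2.2 * Complex.exp (adv σ * Complex.I))

section Smooth

variable {E : Type*} [NormedAddCommGroup E] [NormedSpace ℝ E]

@[fun_prop]
lemma contDiff_re {g : E → ℂ} (hg : ContDiff ℝ 1 g) : ContDiff ℝ 1 fun x => (g x).re :=
  Complex.reCLM.contDiff.comp hg

@[fun_prop]
lemma contDiff_im {g : E → ℂ} (hg : ContDiff ℝ 1 g) : ContDiff ℝ 1 fun x => (g x).im :=
  Complex.imCLM.contDiff.comp hg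

@[fun_prop]
lemma contDiff_zeta {g : E → ℂ} {k : E → ℝ} (hg : ContDiff ℝ 1 g) (hk : ContDiff ℝ 1 k) :
    ContDiff ℝ 1 fun x => zeta (g x) (k x) := by
  have h1 : ContDiff ℝ 1 fun x => den (k x) := by unfold den; fun_prop
  exact (contDiff_ofReal (h1.inv fun x => (den_pos _).ne')).mul hg

lemma contDiff_invSq {g : E → ℂ} (hg : ContDiff ℝ 1 g) :
    ContDiff ℝ 1 fun x => (‖g x‖ ^ 2 + 1)⁻¹ := by
  have h1 : ContDiff ℝ 1 fun x => ‖g x‖ ^ 2 + 1 := by fun_prop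
  exact h1.inv fun x => by positivity

@[fun_prop]
lemma contDiff_stW {g : E → ℂ} (hg : ContDiff ℝ 1 g) : ContDiff ℝ 1 fun x => stW (g x) :=
  (contDiff_ofReal (contDiff_const.mul (contDiff_invSq hg))).mul hg

@[fun_prop]
lemma contDiff_stH {g : E → ℂ} (hg : ContDiff ℝ 1 g) : ContDiff ℝ 1 fun x => stH (g x) :=
  contDiff_const.sub (contDiff_const.mul (contDiff_invSq hg))

lemma contDiff_invCube {k : E → ℝ} (hk : ContDiff ℝ 1 k) :
    ContDiff ℝ 1 fun x => (1 + 3 * k x ^ 2)⁻¹ := by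
  have h1 : ContDiff ℝ 1 fun x => 1 + 3 * k x ^ 2 := by fun_prop
  exact h1.inv fun x => by positivity

@[fun_prop]
lemma contDiff_cubeW {g : E → ℂ} {k : E → ℝ} (hg : ContDiff ℝ 1 g) (hk : ContDiff ℝ 1 k) :
    ContDiff ℝ 1 fun x => cubeW (g x) (k x) :=
  (contDiff_ofReal (contDiff_invCube hk)).mul (hg.pow 3)

@[fun_prop]
lemma contDiff_cubeH {k : E → ℝ} (hk : ContDiff ℝ 1 k) : ContDiff ℝ 1 fun x => cubeH (k x) :=
  (contDiff_invCube hk).mul (by fun_prop)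

@[fun_prop]
lemma contDiff_nsq {g : E → ℂ × ℂ} (hg : ContDiff ℝ 1 g) : ContDiff ℝ 1 fun x => nsq (g x) := by
  unfold nsq
  fun_prop

end Smooth

lemma contDiff_adv : ContDiff ℝ 1 adv := by
  unfold adv nu
  fun_prop

lemma contDiff_newZ : ContDiff ℝ 1 newZ := by
  have := contDiff_readout
  unfold newZ tau eps
  fun_prop

lemma contDiff_newW : ContDiff ℝ 1 newW := by
  have := contDiff_newZ
  unfold newW
  fun_prop

lemma contDiff_newH : ContDiff ℝ 1 newH := by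
  have := contDiff_newZ
  unfold newH
  fun_prop

lemma contDiff_newX : ContDiff ℝ 1 newX := by
  have := contDiff_tel1
  have h2 : ContDiff ℝ 1 (L : ℂ × ℂ → ℂ × ℂ) := L.contDiff
  unfold newX nu tau kap blend
  fun_prop

/-! ### Elementary bounds -/

lemma tau_nonneg (s : ℂ) : 0 ≤ tau s := cut_nonneg _ _ _
lemma tau_le_one (s : ℂ) : tau s ≤ 1 := cut_le_one _ _ _
lemma eps_nonneg (h : ℝ) : 0 ≤ eps h := cut_nonneg _ _ _
lemma eps_le_one (h : ℝ) : eps h ≤ 1 := cut_le_one _ _ _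
lemma nu_nonneg (h : ℝ) : 0 ≤ nu h := sub_nonneg.2 (cut_le_one _ _ _)
lemma nu_le_one (h : ℝ) : nu h ≤ 1 := sub_le_self _ (cut_nonneg _ _ _)
lemma kap_nonneg (x : ℂ × ℂ) : 0 ≤ kap x := sub_nonneg.2 (cut_le_one _ _ _)
lemma kap_le_one (x : ℂ × ℂ) : kap x ≤ 1 := sub_le_self _ (cut_nonneg _ _ _)

lemma nu_of_le {h : ℝ} (hh : h ≤ 19 / 20) : nu h = 1 := by
  rw [nu, cut_eq_zero (by norm_num) hh, sub_zero]

lemma nu_of_ge {h : ℝ} (hh : 24 / 25 ≤ h) : nu h = 0 := by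
  rw [nu, cut_eq_one (by norm_num) hh, sub_self]

lemma kap_of_le {x : ℂ × ℂ} (hx : nsq x ≤ 9) : kap x = 1 := by
  rw [kap, cut_eq_zero (by norm_num) hx, sub_zero]

lemma norm_sq_le_nsq (x : ℂ × ℂ) : ‖x‖ ^ 2 ≤ nsq x := by
  rw [nsq, Prod.norm_def]
  rcases le_total ‖x.1‖ ‖x.2‖ with h | h
  · rw [max_eq_right h]; nlinarith [sq_nonneg ‖x.1‖]
  · rw [max_eq_left h]; nlinarith [sq_nonneg ‖x.2‖]

lemma nsq_le (x : ℂ × ℂ) : nsq x ≤ 2 * ‖x‖ ^ 2 := by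
  have h1 := norm_fst_le x
  have h2 := norm_snd_le x
  have := norm_nonneg x.1
  have := norm_nonneg x.2
  rw [nsq]
  nlinarith

lemma norm_newX_le (σ : St) : ‖newX σ‖ ≤ 68 := by
  have h1 : ‖kap σ.2.2.1 • L σ.2.2.1‖ ≤ 64 := by
    rcases le_or_gt 10 (nsq σ.2.2.1) with h | h
    · rw [kap, cut_eq_one (by norm_num) h]
      simp
    · have h3 : ‖σ.2.2.1‖ ≤ 4 := by
        have := norm_sq_le_nsq σ.2.2.1
        nlinarith [norm_nonneg σ.2.2.1]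
      rw [norm_smul, norm_L, Real.norm_eq_abs, abs_of_nonneg (kap_nonneg _)]
      have := kap_le_one σ.2.2.1
      have := kap_nonneg σ.2.2.1
      nlinarith [norm_nonneg σ.2.2.1]
  have h2 : ‖kap σ.2.2.1 • L σ.2.2.1 - tel1 (zeta σ.1 σ.2.1)‖ ≤ 66 :=
    (norm_sub_le _ _).trans (by linarith [norm_tel1_le (zeta σ.1 σ.2.1)])
  have h3 : ‖(1 - tau σ.2.2.2) • (kap σ.2.2.1 • L σ.2.2.1 - tel1 (zeta σ.1 σ.2.1))‖ ≤ 66 := by
    rw [norm_smul, Real.norm_eq_abs, abs_of_nonneg (sub_nonneg.2 (tau_le_one _))]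
    have := tau_nonneg σ.2.2.2
    nlinarith [norm_nonneg (kap σ.2.2.1 • L σ.2.2.1 - tel1 (zeta σ.1 σ.2.1))]
  have h4 := (norm_add_le _ _).trans (add_le_add
    (norm_tel1_le (blend (tau σ.2.2.2) (zeta σ.1 σ.2.1))) h3)
  rw [newX, norm_smul, Real.norm_eq_abs, abs_of_nonneg (nu_nonneg _)]
  have := nu_le_one σ.2.1
  have := nu_nonneg σ.2.1
  nlinarith [norm_nonneg (tel1 (blend (tau σ.2.2.2) (zeta σ.1 σ.2.1)) +
    (1 - tau σ.2.2.2) • (kap σ.2.2.1 • L σ.2.2.1 - tel1 (zeta σ.1 σ.2.1)))]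

/-! ### Stereographic identities -/

lemma st_valid (ζ : ℂ) : ‖stW ζ‖ ^ 2 + stH ζ ^ 2 = 1 := by
  have h : 0 < ‖ζ‖ ^ 2 + 1 := by positivity
  rw [stW, stH, norm_mul, Complex.norm_real, Real.norm_eq_abs, abs_of_pos (by positivity)]
  field_simp
  ring

lemma cube_valid {w : ℂ} {h : ℝ} (hv : ‖w‖ ^ 2 + h ^ 2 = 1) :
    ‖cubeW w h‖ ^ 2 + cubeH h ^ 2 = 1 := by
  have h0 : 0 < 1 + 3 * h ^ 2 := by positivity
  have h1 : ‖w‖ ^ 2 = 1 - h ^ 2 := by linarith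
  rw [cubeW, cubeH, norm_mul, Complex.norm_real, Real.norm_eq_abs, abs_of_pos (by positivity),
    norm_pow, mul_pow, ← pow_mul, mul_comm 3 2, pow_mul, h1]
  field_simp
  ring

lemma normSq_zeta {w : ℂ} {h : ℝ} (hv : ‖w‖ ^ 2 + h ^ 2 = 1) (hh : h ≤ 24 / 25) :
    ‖zeta w h‖ ^ 2 = (1 + h) / (1 - h) := by
  have h0 : 0 < 1 - h := by linarith
  have h1 : ‖w‖ ^ 2 = 1 - h ^ 2 := by linarith
  rw [zeta, den_of_le hh, norm_mul, Complex.norm_real, Real.norm_eq_abs,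
    abs_of_pos (by positivity), mul_pow, h1]
  field_simp
  ring

lemma stH_zeta {w : ℂ} {h : ℝ} (hv : ‖w‖ ^ 2 + h ^ 2 = 1) (hh : h ≤ 24 / 25) :
    stH (zeta w h) = h := by
  have h0 : 0 < 1 - h := by linarith
  rw [stH, normSq_zeta hv hh]
  field_simp
  ring

lemma stW_cube {w : ℂ} {h : ℝ} (hv : ‖w‖ ^ 2 + h ^ 2 = 1) (hh : h ≤ 24 / 25) :
    stW (zeta w h ^ 3) = cubeW w h := by
  have h0 : 0 < 1 - h := by linarith
  have h2 : 0 < 1 + 3 * h ^ 2 := by positivity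
  rw [stW, norm_pow, ← pow_mul, mul_comm 3 2, pow_mul, normSq_zeta hv hh, cubeW, zeta,
    den_of_le hh, mul_pow, ← mul_assoc, ← Complex.ofReal_pow, ← Complex.ofReal_mul]
  congr 2
  have : ((1 + h) / (1 - h)) ^ 3 + 1 = 2 * (1 + 3 * h ^ 2) / (1 - h) ^ 3 := by
    field_simp
    ring
  rw [this]
  field_simp

lemma stH_cube {w : ℂ} {h : ℝ} (hv : ‖w‖ ^ 2 + h ^ 2 = 1) (hh : h ≤ 24 / 25) :
    stH (zeta w h ^ 3) = cubeH h := by
  have h0 : 0 < 1 - h := by linarith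
  have h2 : 0 < 1 + 3 * h ^ 2 := by positivity
  rw [stH, norm_pow, ← pow_mul, mul_comm 3 2, pow_mul, normSq_zeta hv hh, cubeH]
  have : ((1 + h) / (1 - h)) ^ 3 + 1 = 2 * (1 + 3 * h ^ 2) / (1 - h) ^ 3 := by
    field_simp
    ring
  rw [this]
  field_simp
  ring

lemma le_stH_iff {ζ : ℂ} {c : ℝ} (hc : 0 < c) : 1 - 2 / c ≤ stH ζ ↔ c ≤ ‖ζ‖ ^ 2 + 1 := by
  have h : 0 < ‖ζ‖ ^ 2 + 1 := by positivity
  rw [stH, ← div_eq_mul_inv, sub_le_sub_iff_left, div_le_div_iff_of_pos_left two_pos h hc]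

lemma stH_le_iff {ζ : ℂ} {c : ℝ} (hc : 0 < c) : stH ζ ≤ 1 - 2 / c ↔ ‖ζ‖ ^ 2 + 1 ≤ c := by
  have h : 0 < ‖ζ‖ ^ 2 + 1 := by positivity
  rw [stH, ← div_eq_mul_inv, sub_le_sub_iff_left, div_le_div_iff_of_pos_left two_pos hc h]

lemma zeta_st {ζ : ℂ} (h : stH ζ ≤ 24 / 25) : zeta (stW ζ) (stH ζ) = ζ := by
  have h0 : 0 < ‖ζ‖ ^ 2 + 1 := by positivity
  rw [zeta, den_of_le h, stW, stH, ← mul_assoc, ← Complex.ofReal_mul]
  have : (1 - (1 - 2 * (‖ζ‖ ^ 2 + 1)⁻¹))⁻¹ * (2 * (‖ζ‖ ^ 2 + 1)⁻¹) = 1 := by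
    field_simp
    ring
  rw [this]
  simp

lemma one_sub_cubeH {h : ℝ} (h1 : 19 / 20 ≤ h) (h2 : h ≤ 1) : 1 - cubeH h ≤ (1 - h) / 400 := by
  have h0 : 0 < 1 + 3 * h ^ 2 := by positivity
  have : 1 - cubeH h = (1 - h) ^ 3 / (1 + 3 * h ^ 2) := by
    rw [cubeH]
    field_simp
    ring
  rw [this, div_le_div_iff₀ h0 (by norm_num)]
  have h3 : 0 ≤ 1 - h := by linarith
  have h4 : (1 - h) ^ 2 * 400 ≤ 1 := by nlinarith
  nlinarith [mul_nonneg h3 (sq_nonneg h)]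

/-- Points of the ambient space which come from the manifold. -/
def Valid (σ : St) : Prop := ‖σ.1‖ ^ 2 + σ.2.1 ^ 2 = 1 ∧ ‖σ.2.2.2‖ = 1

lemma Valid.h_le {σ : St} (hv : Valid σ) : σ.2.1 ≤ 1 := by
  have := hv.1
  nlinarith [sq_nonneg ‖σ.1‖]

lemma newW_of_le {σ : St} (hv : Valid σ) (hh : σ.2.1 ≤ 24 / 25) : newW σ = stW (newZ σ) := by
  rw [newW, stW_cube hv.1 hh]
  ring

lemma newH_of_le {σ : St} (hv : Valid σ) (hh : σ.2.1 ≤ 24 / 25) : newH σ = stH (newZ σ) := by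
  rw [newH, stH_cube hv.1 hh]
  ring

lemma newZ_of_plain {σ : St} (hh : tau σ.2.2.2 = 1 ∨ 19 / 20 ≤ σ.2.1) :
    newZ σ = zeta σ.1 σ.2.1 ^ 3 := by
  rcases hh with hh | hh
  · simp [newZ, hh]
  · simp [newZ, eps, cut_eq_one (by norm_num : (9 / 10 : ℝ) < 19 / 20) hh]

lemma newW_of_plain {σ : St} (hh : tau σ.2.2.2 = 1 ∨ 19 / 20 ≤ σ.2.1) :
    newW σ = cubeW σ.1 σ.2.1 := by
  simp [newW, newZ_of_plain hh]

lemma newH_of_plain {σ : St} (hh : tau σ.2.2.2 = 1 ∨ 19 / 20 ≤ σ.2.1) :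
    newH σ = cubeH σ.2.1 := by
  simp [newH, newZ_of_plain hh]

lemma new_valid {σ : St} (hv : Valid σ) : ‖newW σ‖ ^ 2 + newH σ ^ 2 = 1 := by
  rcases le_total σ.2.1 (24 / 25) with h | h
  · rw [newW_of_le hv h, newH_of_le hv h, st_valid]
  · rw [newW_of_plain (Or.inr (by linarith)), newH_of_plain (Or.inr (by linarith)),
      cube_valid hv.1]

lemma Valid.step {σ : St} (hv : Valid σ) : Valid (step σ) :=
  ⟨new_valid hv, by simp [P103.step, hv.2]⟩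

lemma Valid.iterate {σ : St} (hv : Valid σ) (n : ℕ) : Valid (P103.step^[n] σ) := by
  induction n with
  | zero => exact hv
  | succ n ih => rw [Function.iterate_succ_apply']; exact ih.step

end Vale.Agent.P103
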