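import Mathlib

/-!
The telescope map `E : ℂ → ℂ × ℂ`, a `C^1` map with `E (4 b u^3) = L (E (b u))` for small `b`.
-/

open Filter Topology

noncomputable section

namespace Vale.Agent.P103

/-- Smooth cutoff: `0` for `t ≤ a`, `1` for `b ≤ t`. -/
def cut (a b t : ℝ) : ℝ := Real.smoothTransition ((t - a) / (b - a))

lemma cut_nonneg (a b t : ℝ) : 0 ≤ cut a b t := Real.smoothTransition.nonneg _

lemma cut_le_one (a b t : ℝ) : cut a b t ≤ 1 := Real.smoothTransition.le_one _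

lemma cut_eq_zero {a b t : ℝ} (hab : a < b) (h : t ≤ a) : cut a b t = 0 :=
  Real.smoothTransition.zero_of_nonpos (div_nonpos_of_nonpos_of_nonneg (by linarith) (by linarith))

lemma cut_eq_one {a b t : ℝ} (hab : a < b) (h : b ≤ t) : cut a b t = 1 :=
  Real.smoothTransition.one_of_one_le (by rw [le_div_iff₀ (by linarith)]; linarith)

lemma cut_pos {a b t : ℝ} (hab : a < b) (h : a < t) : 0 < cut a b t :=
  Real.smoothTransition.pos_of_pos (div_pos (by linarith) (by linarith))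

lemma lt_of_cut_ne_zero {a b t : ℝ} (hab : a < b) (h : cut a b t ≠ 0) : a < t := by
  by_contra h'
  exact h (cut_eq_zero hab (not_lt.1 h'))

lemma lt_of_cut_ne_one {a b t : ℝ} (hab : a < b) (h : cut a b t ≠ 1) : t < b := by
  by_contra h'
  exact h (cut_eq_one hab (not_lt.1 h'))

@[fun_prop]
lemma contDiff_cut {E : Type*} [NormedAddCommGroup E] [NormedSpace ℝ E] (a b : ℝ) {g : E → ℝ}
    (hg : ContDiff ℝ 1 g) : ContDiff ℝ 1 fun x => cut a b (g x) := by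
  unfold cut
  exact (Real.smoothTransition.contDiff (n := 1)).comp (by fun_prop)

@[fun_prop]
lemma contDiff_ofReal {E : Type*} [NormedAddCommGroup E] [NormedSpace ℝ E] {g : E → ℝ}
    (hg : ContDiff ℝ 1 g) : ContDiff ℝ 1 fun x => ((g x : ℝ) : ℂ) :=
  Complex.ofRealCLM.contDiff.comp hg

@[fun_prop]
lemma contDiff_normSq {E : Type*} [NormedAddCommGroup E] [NormedSpace ℝ E] {g : E → ℂ}
    (hg : ContDiff ℝ 1 g) : ContDiff ℝ 1 fun x => ‖g x‖ ^ 2 :=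
  (contDiff_norm_sq ℝ (E := ℂ)).comp hg

/-- Radial bump in the squared radius: supported in `[36, 1024]`, equal to `1` on `[49, 784]`. -/
def bump (t : ℝ) : ℝ := cut 36 49 t * (1 - cut 784 1024 t)

lemma bump_nonneg (t : ℝ) : 0 ≤ bump t :=
  mul_nonneg (cut_nonneg _ _ _) (by linarith [cut_le_one 784 1024 t])

lemma bump_le_one (t : ℝ) : bump t ≤ 1 :=
  mul_le_one₀ (cut_le_one _ _ _) (by linarith [cut_le_one 784 1024 t])
    (by linarith [cut_nonneg 784 1024 t])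

lemma bump_of_le {t : ℝ} (h : t ≤ 36) : bump t = 0 := by
  simp [bump, cut_eq_zero (by norm_num : (36 : ℝ) < 49) h]

lemma bump_of_ge {t : ℝ} (h : 1024 ≤ t) : bump t = 0 := by
  simp [bump, cut_eq_one (by norm_num : (784 : ℝ) < 1024) h]

lemma bump_eq_one {t : ℝ} (h : 49 ≤ t) (h' : t ≤ 784) : bump t = 1 := by
  simp [bump, cut_eq_one (by norm_num : (36 : ℝ) < 49) h,
    cut_eq_zero (by norm_num : (784 : ℝ) < 1024) h']

@[fun_prop]
lemma contDiff_bump {E : Type*} [NormedAddCommGroup E] [NormedSpace ℝ E] {g : E → ℝ}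
    (hg : ContDiff ℝ 1 g) : ContDiff ℝ 1 fun x => bump (g x) := by
  unfold bump
  fun_prop

lemma dirDen_pos (y : ℂ) : 0 < ‖y‖ ^ 2 + (1 - cut 0 1 (‖y‖ ^ 2)) := by
  rcases lt_or_ge (‖y‖ ^ 2) 1 with h | h
  · have : cut 0 1 (‖y‖ ^ 2) < 1 := Real.smoothTransition.lt_one_of_lt_one (by simpa using h)
    have := sq_nonneg ‖y‖
    linarith
  · have := cut_le_one 0 1 (‖y‖ ^ 2)
    linarith

/-- A smooth map which agrees with `y / ‖y‖` outside the unit disc. -/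
def dir (y : ℂ) : ℂ := (((√(‖y‖ ^ 2 + (1 - cut 0 1 (‖y‖ ^ 2))))⁻¹ : ℝ) : ℂ) * y

lemma contDiff_dir : ContDiff ℝ 1 dir := by
  unfold dir
  have h1 : ContDiff ℝ 1 fun y : ℂ => ‖y‖ ^ 2 + (1 - cut 0 1 (‖y‖ ^ 2)) := by fun_prop
  have h2 : ContDiff ℝ 1 fun y : ℂ => √(‖y‖ ^ 2 + (1 - cut 0 1 (‖y‖ ^ 2))) :=
    h1.sqrt fun y => (dirDen_pos y).ne'
  have h3 := h2.inv fun y => (Real.sqrt_pos.2 (dirDen_pos y)).ne'
  exact (contDiff_ofReal h3).mul contDiff_id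

lemma norm_dir_le (y : ℂ) : ‖dir y‖ ≤ 1 := by
  have h := Real.sqrt_pos.2 (dirDen_pos y)
  have h2 : ‖y‖ ≤ √(‖y‖ ^ 2 + (1 - cut 0 1 (‖y‖ ^ 2))) :=
    Real.le_sqrt_of_sq_le (by linarith [cut_le_one 0 1 (‖y‖ ^ 2)])
  rw [dir, norm_mul, Complex.norm_real, Real.norm_eq_abs, abs_of_pos (inv_pos.2 h),
    inv_mul_le_iff₀ h]
  linarith

lemma norm_polar {b : ℝ} {u : ℂ} (hb : 0 ≤ b) (hu : ‖u‖ = 1) : ‖(b : ℂ) * u‖ = b := by
  rw [norm_mul, hu, Complex.norm_real, Real.norm_eq_abs, abs_of_nonneg hb, mul_one]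

lemma dir_polar {b : ℝ} {u : ℂ} (hb : 1 ≤ b) (hu : ‖u‖ = 1) : dir ((b : ℂ) * u) = u := by
  have h0 : 0 ≤ b := by linarith
  rw [dir, norm_polar h0 hu, cut_eq_one one_pos (by nlinarith), sub_self, add_zero,
    Real.sqrt_sq h0]
  have : (b : ℂ) ≠ 0 := by exact_mod_cast (by linarith : b ≠ 0)
  push_cast
  field_simp

/-- The profile of the `k`-th term. -/
def prof (k : ℕ) (y : ℂ) : ℂ := (bump (‖y‖ ^ 2) : ℂ) * dir y ^ 3 ^ k

lemma contDiff_prof (k : ℕ) : ContDiff ℝ 1 (prof k) := by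
  unfold prof
  have := contDiff_dir
  fun_prop

lemma prof_polar (k : ℕ) {b : ℝ} {u : ℂ} (hb : 0 ≤ b) (hu : ‖u‖ = 1) :
    prof k ((b : ℂ) * u) = (bump (b ^ 2) : ℂ) * u ^ 3 ^ k := by
  rw [prof, norm_polar hb hu]
  rcases le_or_gt b 1 with h | h
  · rw [bump_of_le (by nlinarith)]
    simp
  · rw [dir_polar h.le hu]

lemma norm_prof_le (k : ℕ) (y : ℂ) : ‖prof k y‖ ≤ 1 := by
  rw [prof, norm_mul, norm_pow, Complex.norm_real, Real.norm_eq_abs,
    abs_of_nonneg (bump_nonneg _)]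
  exact mul_le_one₀ (bump_le_one _) (by positivity) (pow_le_one₀ (norm_nonneg _) (norm_dir_le y))

lemma norm_fderiv_prof_le : ∃ C : ℝ, 0 ≤ C ∧ ∀ k y, ‖fderiv ℝ (prof k) y‖ ≤ C * 3 ^ k := by
  set β : ℂ → ℂ := fun y => (bump (‖y‖ ^ 2) : ℂ) with hβ
  have hβd : ContDiff ℝ 1 β := by rw [hβ]; fun_prop
  obtain ⟨C1, hC1⟩ := (isCompact_closedBall (0 : ℂ) 32).exists_bound_of_continuousOn
    (hβd.continuous_fderiv one_ne_zero).continuousOn
  obtain ⟨C2, hC2⟩ := (isCompact_closedBall (0 : ℂ) 32).exists_bound_of_continuousOn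
    (contDiff_dir.continuous_fderiv one_ne_zero).continuousOn
  have h1 : 0 ≤ C1 := (norm_nonneg _).trans (hC1 0 (by simp))
  have h2 : 0 ≤ C2 := (norm_nonneg _).trans (hC2 0 (by simp))
  refine ⟨C1 + C2, by positivity, fun k y => ?_⟩
  by_cases hy : y ∈ Metric.closedBall (0 : ℂ) 32
  · have d1 : HasFDerivAt β (fderiv ℝ β y) y :=
      (hβd.differentiable one_ne_zero y).hasFDerivAt
    have d2 : HasFDerivAt dir (fderiv ℝ dir y) y :=
      (contDiff_dir.differentiable one_ne_zero y).hasFDerivAt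
    have d3 := d1.mul (d2.pow (3 ^ k))
    have : fderiv ℝ (prof k) y = _ := d3.fderiv
    rw [this]
    have e1 : ‖β y‖ ≤ 1 := by
      simp only [hβ, Complex.norm_real, Real.norm_eq_abs, abs_of_nonneg (bump_nonneg _)]
      exact bump_le_one _
    have e2 : ∀ m : ℕ, ‖dir y ^ m‖ ≤ 1 := fun m => by
      rw [norm_pow]
      exact pow_le_one₀ (norm_nonneg _) (norm_dir_le y)
    have e3 : ‖(3 ^ k : ℕ) • dir y ^ (3 ^ k - 1)‖ ≤ 3 ^ k := by
      rw [nsmul_eq_mul, norm_mul, Complex.norm_natCast]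
      push_cast
      exact mul_le_of_le_one_right (by positivity) (e2 _)
    have e4 : (1 : ℝ) ≤ 3 ^ k := one_le_pow₀ (by norm_num)
    refine (norm_add_le _ _).trans ?_
    have f1 : ‖β y • ((3 ^ k : ℕ) • dir y ^ (3 ^ k - 1)) • fderiv ℝ dir y‖ ≤ 1 * (3 ^ k * C2) := by
      rw [norm_smul, norm_smul]
      gcongr
      exact hC2 y hy
    have f2 : ‖(dir y ^ 3 ^ k) • fderiv ℝ β y‖ ≤ 1 * C1 := by
      rw [norm_smul]
      gcongr
      · exact e2 _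
      · exact hC1 y hy
    refine (add_le_add f1 f2).trans ?_
    nlinarith
  · have hev : prof k =ᶠ[𝓝 y] fun _ => 0 := by
      have ho : IsOpen (Metric.closedBall (0 : ℂ) 32)ᶜ := Metric.isClosed_closedBall.isOpen_compl
      filter_upwards [ho.mem_nhds hy] with x hx
      have : 32 < ‖x‖ := by simpa using hx
      simp [prof, bump_of_ge (show (1024 : ℝ) ≤ ‖x‖ ^ 2 by nlinarith)]
    rw [hev.fderiv_eq]
    simp only [fderiv_fun_const, Pi.zero_apply, norm_zero]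
    positivity

/-- The contraction `J (a, b) = (b, a) / 16`. -/
def J : ℂ × ℂ →L[ℝ] ℂ × ℂ :=
  (1 / 16 : ℝ) • (ContinuousLinearMap.snd ℝ ℂ ℂ).prod (ContinuousLinearMap.fst ℝ ℂ ℂ)

/-- The expansion `L (a, b) = 16 (b, a)`. -/
def L : ℂ × ℂ →L[ℝ] ℂ × ℂ :=
  (16 : ℝ) • (ContinuousLinearMap.snd ℝ ℂ ℂ).prod (ContinuousLinearMap.fst ℝ ℂ ℂ)

lemma J_apply (x : ℂ × ℂ) : J x = (x.2 / 16, x.1 / 16) := by
  ext <;> simp [J] <;> ring

lemma L_apply (x : ℂ × ℂ) : L x = (16 * x.2, 16 * x.1) := by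
  ext <;> simp [L]

lemma L_J (x : ℂ × ℂ) : L (J x) = x := by
  ext <;> simp [L_apply, J_apply] <;> ring

lemma norm_J (x : ℂ × ℂ) : ‖J x‖ = ‖x‖ / 16 := by
  rw [J_apply, Prod.norm_def, Prod.norm_def, norm_div, norm_div, max_comm,
    max_div_div_right (by positivity)]
  simp

lemma norm_L (x : ℂ × ℂ) : ‖L x‖ = 16 * ‖x‖ := by
  rw [L_apply, Prod.norm_def, Prod.norm_def, norm_mul, norm_mul, max_comm,
    ← mul_max_of_nonneg _ _ (by positivity)]
  simp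

lemma norm_J_pow (k : ℕ) (x : ℂ × ℂ) : ‖(J ^ k) x‖ = (1 / 16) ^ k * ‖x‖ := by
  induction k with
  | zero => simp
  | succ k ih =>
    rw [pow_succ', mul_apply_eq_comp, norm_J, ih]
    ring

/-- The `k`-th term of the telescope. -/
def term (k : ℕ) (y : ℂ) : ℂ × ℂ := (J ^ k) (prof k ((4 : ℂ) ^ k * y), 0)

lemma contDiff_term (k : ℕ) : ContDiff ℝ 1 (term k) := by
  unfold term
  have := contDiff_prof k
  exact (J ^ k).contDiff.comp (by fun_prop)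

lemma norm_term_le (k : ℕ) (y : ℂ) : ‖term k y‖ ≤ (1 / 16) ^ k := by
  rw [term, norm_J_pow]
  refine mul_le_of_le_one_right (by positivity) ?_
  simpa [Prod.norm_def] using norm_prof_le _ _

lemma norm_fderiv_term_le :
    ∃ C : ℝ, ∀ k y, ‖fderiv ℝ (term k) y‖ ≤ C * (3 / 4) ^ k := by
  obtain ⟨C, hC0, hC⟩ := norm_fderiv_prof_le
  refine ⟨C, fun k y => ?_⟩
  let m : ℂ →L[ℝ] ℂ := ContinuousLinearMap.mul ℝ ℂ ((4 : ℂ) ^ k)
  have d1 : HasFDerivAt (prof k) (fderiv ℝ (prof k) (m y)) (m y) :=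
    ((contDiff_prof k).differentiable one_ne_zero _).hasFDerivAt
  have d2 := ((J ^ k).comp (ContinuousLinearMap.inl ℝ ℂ ℂ)).hasFDerivAt.comp y
    (d1.comp y m.hasFDerivAt)
  have : fderiv ℝ (term k) y = _ := d2.fderiv
  rw [this]
  refine ContinuousLinearMap.opNorm_le_bound _ (by positivity) fun v => ?_
  simp only [ContinuousLinearMap.comp_apply, ContinuousLinearMap.inl_apply, norm_J_pow]
  have e1 : ‖(fderiv ℝ (prof k) (m y)) (m v)‖ ≤ C * 3 ^ k * (4 ^ k * ‖v‖) := by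
    refine (ContinuousLinearMap.le_opNorm _ _).trans ?_
    have : ‖m v‖ = 4 ^ k * ‖v‖ := by simp [m]
    rw [this]
    gcongr
    exact hC _ _
  have e2 : ‖((fderiv ℝ (prof k) (m y)) (m v), (0 : ℂ))‖ ≤ C * 3 ^ k * (4 ^ k * ‖v‖) := by
    simpa [Prod.norm_def] using e1
  calc _ ≤ (1 / 16) ^ k * (C * 3 ^ k * (4 ^ k * ‖v‖)) := by gcongr
    _ = C * ((1 / 16) * 3 * 4) ^ k * ‖v‖ := by rw [mul_pow, mul_pow]; ring
    _ = _ := by norm_num

/-- The telescope map. -/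
def tel (y : ℂ) : ℂ × ℂ := ∑' k, term k y

lemma summable_geom16 : Summable fun k : ℕ => ((1 : ℝ) / 16) ^ k :=
  summable_geometric_of_lt_one (by norm_num) (by norm_num)

lemma summable_term (y : ℂ) : Summable fun k => term k y :=
  Summable.of_norm_bounded summable_geom16 fun k => norm_term_le k y

theorem contDiff_tel : ContDiff ℝ 1 tel := by
  obtain ⟨C, hC⟩ := norm_fderiv_term_le
  have := contDiff_tsum (𝕜 := ℝ) (N := 1) (f := term)
    (v := fun j k => if j = 0 then (1 / 16) ^ k else C * (3 / 4) ^ k)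
    contDiff_term (fun j _ => by
      split_ifs
      · exact summable_geom16
      · exact (summable_geometric_of_lt_one (by norm_num) (by norm_num)).mul_left C)
    (fun j k y hj => by
      have hj' : j ≤ 1 := by exact_mod_cast hj
      interval_cases j
      · simpa using norm_term_le k y
      · simpa [norm_iteratedFDeriv_one] using hC k y)
  exact this

lemma norm_tel_le (y : ℂ) : ‖tel y‖ ≤ 2 := by
  have := tsum_of_norm_bounded (hasSum_geometric_of_lt_one (r := 1 / 16) (by norm_num)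
    (by norm_num)) fun k => norm_term_le k y
  refine this.trans (by norm_num)

lemma term_polar (k : ℕ) {b : ℝ} {u : ℂ} (hb : 0 ≤ b) (hu : ‖u‖ = 1) :
    term k ((b : ℂ) * u) = (J ^ k) ((bump ((4 ^ k * b) ^ 2) : ℂ) * u ^ 3 ^ k, 0) := by
  have : (4 : ℂ) ^ k * ((b : ℂ) * u) = ((4 ^ k * b : ℝ) : ℂ) * u := by push_cast; ring
  rw [term, this, prof_polar k (by positivity) hu]

lemma norm_cube {u : ℂ} (hu : ‖u‖ = 1) : ‖u ^ 3‖ = 1 := by simp [hu]

lemma term_succ (k : ℕ) {b : ℝ} {u : ℂ} (hb : 0 ≤ b) (hu : ‖u‖ = 1) :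
    term (k + 1) ((b : ℂ) * u) = J (term k (((4 * b : ℝ) : ℂ) * u ^ 3)) := by
  rw [term_polar _ hb hu, term_polar _ (by positivity) (norm_cube hu), pow_succ' J,
    mul_apply_eq_comp, ← pow_mul, ← pow_succ' 3 k]
  congr 6
  ring

lemma term_zero_polar {b : ℝ} {u : ℂ} (hb : 0 ≤ b) (hu : ‖u‖ = 1) :
    term 0 ((b : ℂ) * u) = ((bump (b ^ 2) : ℂ) * u, 0) := by
  rw [term_polar _ hb hu]
  simp

/-- Self-similarity of the telescope. -/
theorem tel_polar {b : ℝ} {u : ℂ} (hb : 0 ≤ b) (hu : ‖u‖ = 1) :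
    tel ((b : ℂ) * u) = term 0 ((b : ℂ) * u) + J (tel (((4 * b : ℝ) : ℂ) * u ^ 3)) := by
  rw [tel, (summable_term _).tsum_eq_zero_add, tel, J.map_tsum (summable_term _)]
  simp only [term_succ _ hb hu]

lemma tel_small {b : ℝ} {u : ℂ} (hb : 0 ≤ b) (hb' : b ≤ 6) (hu : ‖u‖ = 1) :
    tel ((b : ℂ) * u) = J (tel (((4 * b : ℝ) : ℂ) * u ^ 3)) := by
  rw [tel_polar hb hu, term_zero_polar hb hu, bump_of_le (by nlinarith)]
  simp

lemma tel_top {b : ℝ} {u : ℂ} (hb : 8 ≤ b) (hu : ‖u‖ = 1) :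
    tel ((b : ℂ) * u) = ((bump (b ^ 2) : ℂ) * u, 0) := by
  rw [tel, tsum_eq_single 0, term_zero_polar (by linarith) hu]
  intro k hk
  obtain ⟨k, rfl⟩ := Nat.exists_eq_add_one_of_ne_zero hk
  have h4 : (1 : ℝ) ≤ 4 ^ k := one_le_pow₀ (by norm_num)
  have h5 : 32 ≤ 4 ^ (k + 1) * b := by rw [pow_succ]; nlinarith
  rw [term_polar _ (by linarith) hu, bump_of_ge (by nlinarith), Complex.ofReal_zero, zero_mul]
  exact map_zero _

lemma tel_mid {b : ℝ} {u : ℂ} (hb : 2 ≤ b) (hu : ‖u‖ = 1) :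
    tel ((b : ℂ) * u) = ((bump (b ^ 2) : ℂ) * u, (bump ((4 * b) ^ 2) : ℂ) * u ^ 3 / 16) := by
  rw [tel_polar (by linarith) hu, term_zero_polar (by linarith) hu,
    tel_top (by linarith) (norm_cube hu), J_apply]
  simp

/-- The shifted telescope `L (E - T_0)`; it equals `E` composed with the cone map. -/
def tel1 (y : ℂ) : ℂ × ℂ := L (tel y - term 0 y)

lemma contDiff_tel1 : ContDiff ℝ 1 tel1 :=
  L.contDiff.comp (contDiff_tel.sub (contDiff_term 0))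

lemma tel1_polar {b : ℝ} {u : ℂ} (hb : 0 ≤ b) (hu : ‖u‖ = 1) :
    tel1 ((b : ℂ) * u) = tel (((4 * b : ℝ) : ℂ) * u ^ 3) := by
  rw [tel1, tel_polar hb hu, add_sub_cancel_left, L_J]

lemma exists_polar (y : ℂ) : ∃ u : ℂ, ‖u‖ = 1 ∧ y = ((‖y‖ : ℝ) : ℂ) * u := by
  refine ⟨Complex.exp (Complex.arg y * Complex.I), by simp, ?_⟩
  exact (Complex.norm_mul_exp_arg_mul_I y).symm

lemma norm_tel1_le (y : ℂ) : ‖tel1 y‖ ≤ 2 := by
  obtain ⟨u, hu, hy⟩ := exists_polar y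
  rw [hy, tel1_polar (norm_nonneg _) hu]
  exact norm_tel_le _

lemma L_tel {b : ℝ} {u : ℂ} (hb : 0 ≤ b) (hb' : b ≤ 6) (hu : ‖u‖ = 1) :
    L (tel ((b : ℂ) * u)) = tel (((4 * b : ℝ) : ℂ) * u ^ 3) := by
  rw [tel_small hb hb' hu, L_J]

/-- The read-out map. -/
def readout (x : ℂ × ℂ) : ℂ :=
  8 * ((cut (1 / 2) 1 (‖x.1‖ ^ 2) : ℂ) * x.1 ^ 3 +
    (cut (1 / 2) 1 (256 * ‖x.2‖ ^ 2) : ℂ) * (16 * x.2))

lemma contDiff_readout : ContDiff ℝ 1 readout := by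
  unfold readout
  fun_prop

lemma readout_small {x : ℂ × ℂ} (hx : ‖x‖ ≤ 1 / 32) : readout x = 0 := by
  have h1 : ‖x.1‖ ≤ 1 / 32 := (norm_fst_le x).trans hx
  have h2 : ‖x.2‖ ≤ 1 / 32 := (norm_snd_le x).trans hx
  have := norm_nonneg x.1
  have := norm_nonneg x.2
  rw [readout, cut_eq_zero (by norm_num) (by nlinarith), cut_eq_zero (by norm_num) (by nlinarith)]
  simp

lemma readout_tel_small {b : ℝ} {u : ℂ} (hb : 0 ≤ b) (hb' : b ≤ 3 / 2) (hu : ‖u‖ = 1) :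
    readout (tel ((b : ℂ) * u)) = 0 := by
  apply readout_small
  rw [tel_small hb (by linarith) hu, tel_small (by linarith) (by linarith) (norm_cube hu),
    norm_J, norm_J]
  have := norm_tel_le (((4 * (4 * b) : ℝ) : ℂ) * (u ^ 3) ^ 3)
  linarith

lemma readout_tel_mid {b : ℝ} {u : ℂ} (hb : 0 ≤ b) (hb' : b ≤ 2) (hu : ‖u‖ = 1) :
    ∃ q : ℝ, 0 ≤ q ∧ readout (tel ((b : ℂ) * u)) = (q : ℂ) * u ^ 3 := by
  rcases le_or_gt b (3 / 2) with h | h
  · exact ⟨0, le_rfl, by simp [readout_tel_small hb h hu]⟩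
  rw [tel_small hb (by linarith) hu, tel_mid (by linarith) (norm_cube hu), J_apply, readout]
  have h1 : ‖(bump ((4 * (4 * b)) ^ 2) : ℂ) * (u ^ 3) ^ 3 / 16 / 16‖ ≤ 1 / 256 := by
    rw [norm_div, norm_div, norm_polar (bump_nonneg _) (norm_cube (norm_cube hu))]
    have := bump_le_one ((4 * (4 * b)) ^ 2)
    norm_num
    linarith
  have h0 := norm_nonneg ((bump ((4 * (4 * b)) ^ 2) : ℂ) * (u ^ 3) ^ 3 / 16 / 16)
  rw [cut_eq_zero (by norm_num) (by nlinarith)]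
  refine ⟨8 * (cut (1 / 2) 1 (256 * ‖(bump ((4 * b) ^ 2) : ℂ) * u ^ 3 / 16‖ ^ 2) *
    bump ((4 * b) ^ 2)), ?_, ?_⟩
  · have := cut_nonneg (1 / 2) 1 (256 * ‖(bump ((4 * b) ^ 2) : ℂ) * u ^ 3 / 16‖ ^ 2)
    have := bump_nonneg ((4 * b) ^ 2)
    positivity
  · push_cast
    ring

lemma readout_tel_big {b : ℝ} {u : ℂ} (hb : 2 ≤ b) (hb' : b ≤ 8) (hu : ‖u‖ = 1) :
    ∃ q : ℝ, 8 ≤ q ∧ readout (tel ((b : ℂ) * u)) = (q : ℂ) * u ^ 3 := by
  rw [tel_mid hb hu, readout]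
  have n1 : ‖(bump (b ^ 2) : ℂ) * u‖ = bump (b ^ 2) := norm_polar (bump_nonneg _) hu
  have n2 : 256 * ‖(bump ((4 * b) ^ 2) : ℂ) * u ^ 3 / 16‖ ^ 2 = bump ((4 * b) ^ 2) ^ 2 := by
    rw [norm_div, norm_polar (bump_nonneg _) (norm_cube hu)]
    norm_num
    ring
  simp only [n1, n2]
  refine ⟨8 * (cut (1 / 2) 1 (bump (b ^ 2) ^ 2) * bump (b ^ 2) ^ 3 +
    cut (1 / 2) 1 (bump ((4 * b) ^ 2) ^ 2) * bump ((4 * b) ^ 2)), ?_, ?_⟩
  · have a1 := cut_nonneg (1 / 2) 1 (bump (b ^ 2) ^ 2)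
    have a2 := cut_nonneg (1 / 2) 1 (bump ((4 * b) ^ 2) ^ 2)
    have a3 := bump_nonneg (b ^ 2)
    have a4 := bump_nonneg ((4 * b) ^ 2)
    rcases le_or_gt b 7 with h | h
    · have e : bump ((4 * b) ^ 2) = 1 := bump_eq_one (by nlinarith) (by nlinarith)
      rw [e, cut_eq_one (by norm_num) (by norm_num : (1 : ℝ) ≤ 1 ^ 2)]
      have : 0 ≤ cut (1 / 2) 1 (bump (b ^ 2) ^ 2) * bump (b ^ 2) ^ 3 := by positivity
      linarith
    · have e : bump (b ^ 2) = 1 := bump_eq_one (by nlinarith) (by nlinarith)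
      rw [e, cut_eq_one (by norm_num) (by norm_num : (1 : ℝ) ≤ 1 ^ 2)]
      have : 0 ≤ cut (1 / 2) 1 (bump ((4 * b) ^ 2) ^ 2) * bump ((4 * b) ^ 2) := by positivity
      linarith
  · push_cast
    ring

end Vale.Agent.P103
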