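import Vale.Agent.P103.Map

/-!
Variation of the argument along edges, and lifts of singular simplices of the sphere to
homogeneous coordinates.
-/

open Filter Topology

noncomputable section

namespace Vale.Agent.P103

/-- The topological `n`-simplex. -/
abbrev Dl (n : ℕ) : Type := stdSimplex ℝ (Fin (n + 1))

/-- Face inclusions. -/
def face {n : ℕ} (i : Fin (n + 2)) : C(Dl n, Dl (n + 1)) :=
  ⟨stdSimplex.map i.succAbove, stdSimplex.continuous_map _⟩

lemma exists_log {n : ℕ} {φ : Dl n → ℂ} (hφ : Continuous φ) (h0 : ∀ t, φ t ≠ 0) :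
    ∃ l : C(Dl n, ℂ), ∀ t, Complex.exp (l t) = φ t := by
  have hc : Convex ℝ (stdSimplex ℝ (Fin (n + 1))) := convex_stdSimplex ℝ _
  have : ContractibleSpace (Dl n) := hc.contractibleSpace ⟨_, single_mem_stdSimplex ℝ 0⟩
  have : LocallyPathConnectedSpace (Dl n) := hc.locallyPathConnectedSpace
  obtain ⟨F, ⟨-, hF⟩, -⟩ := Complex.isCoveringMapOn_exp.existsUnique_continuousMap_lifts
    (⟨φ, hφ⟩ : C(Dl n, ℂ)) (a₀ := stdSimplex.vertex 0) (Complex.exp_log (h0 _)) h0
  exact ⟨F, fun t => congrFun hF t⟩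

open Classical in
/-- Variation of the argument along the edge. -/
def wind (φ : Dl 1 → ℂ) : ℝ :=
  if h : ∃ l : C(Dl 1, ℂ), ∀ t, Complex.exp (l t) = φ t then
    (h.choose (stdSimplex.vertex 1) - h.choose (stdSimplex.vertex 0)).im
  else 0

lemma wind_eq {φ : Dl 1 → ℂ} {l : Dl 1 → ℂ} (hl : Continuous l)
    (h : ∀ t, Complex.exp (l t) = φ t) :
    wind φ = (l (stdSimplex.vertex 1) - l (stdSimplex.vertex 0)).im := by
  have hex : ∃ l : C(Dl 1, ℂ), ∀ t, Complex.exp (l t) = φ t := ⟨⟨l, hl⟩, h⟩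
  rw [wind, dif_pos hex]
  have h1 := hex.choose_spec
  set l' := hex.choose
  have := Complex.isCoveringMap_exp.const_of_comp (g := fun t => l' t - l t) (by fun_prop)
    (fun a a' => by
      apply Subtype.ext
      simp only [Complex.exp_sub, h1, h]
      rw [div_self (by rw [← h]; exact Complex.exp_ne_zero _),
        div_self (by rw [← h]; exact Complex.exp_ne_zero _)])
    (stdSimplex.vertex 1) (stdSimplex.vertex 0)
  congr 1
  linear_combination this

lemma wind_mul {φ ψ : Dl 1 → ℂ} (hφ : Continuous φ) (h0 : ∀ t, φ t ≠ 0) (hψ : Continuous ψ)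
    (h1 : ∀ t, ψ t ≠ 0) : wind (fun t => φ t * ψ t) = wind φ + wind ψ := by
  obtain ⟨l, hl⟩ := exists_log hφ h0
  obtain ⟨m, hm⟩ := exists_log hψ h1
  rw [wind_eq l.continuous hl, wind_eq m.continuous hm,
    wind_eq (l := fun t => l t + m t) (by fun_prop) (fun t => by rw [Complex.exp_add, hl, hm]),
    ← Complex.add_im]
  congr 1
  ring

lemma wind_boundary {Φ : Dl 2 → ℂ} (hΦ : Continuous Φ) (h0 : ∀ t, Φ t ≠ 0) :
    wind (fun t => Φ (face 0 t)) - wind (fun t => Φ (face 1 t)) +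
      wind (fun t => Φ (face 2 t)) = 0 := by
  obtain ⟨l, hl⟩ := exists_log hΦ h0
  have h : ∀ i : Fin 3, wind (fun t => Φ (face i t)) =
      (l (stdSimplex.vertex (i.succAbove 1)) - l (stdSimplex.vertex (i.succAbove 0))).im := by
    intro i
    rw [wind_eq (l := fun t => l (face i t)) (by fun_prop) fun t => hl _]
    simp [face]
  rw [h, h, h]
  have e1 : (0 : Fin 3).succAbove 1 = 2 := rfl
  have e2 : (0 : Fin 3).succAbove 0 = 1 := rfl
  have e3 : (1 : Fin 3).succAbove 1 = 2 := rfl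
  have e4 : (1 : Fin 3).succAbove 0 = 0 := rfl
  have e5 : (2 : Fin 3).succAbove 1 = 1 := rfl
  have e6 : (2 : Fin 3).succAbove 0 = 0 := rfl
  rw [e1, e2, e3, e4, e5, e6]
  simp only [Complex.sub_im]
  ring

/-- `v` is a pair of homogeneous coordinates of the point `m` of the sphere. -/
def Over (v : ℂ × ℂ) (m : S2) : Prop :=
  v ≠ 0 ∧ (1 - (m.1 2 : ℂ)) * v.1 = toW m.1 * v.2 ∧
    (1 + (m.1 2 : ℂ)) * v.2 = (starRingEnd ℂ) (toW m.1) * v.1

lemma S2_mul_conj (m : S2) :
    toW m.1 * (starRingEnd ℂ) (toW m.1) = 1 - (m.1 2 : ℂ) ^ 2 := by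
  rw [Complex.mul_conj, Complex.normSq_eq_norm_sq]
  have := S2_valid m
  have h : ‖toW m.1‖ ^ 2 = 1 - m.1 2 ^ 2 := by linarith
  rw [h]
  push_cast
  ring

/-- Twice the orthogonal projection onto the line of `m`. -/
def transport (m : S2) (v : ℂ × ℂ) : ℂ × ℂ :=
  ((1 + (m.1 2 : ℂ)) * v.1 + toW m.1 * v.2,
    (starRingEnd ℂ) (toW m.1) * v.1 + (1 - (m.1 2 : ℂ)) * v.2)

lemma continuous_transport : Continuous fun p : S2 × (ℂ × ℂ) => transport p.1 p.2 := by
  have := contDiff_toW.continuous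
  unfold transport
  fun_prop

lemma dist_S2_sq (m m' : S2) :
    dist m m' ^ 2 = ‖toW m.1 - toW m'.1‖ ^ 2 + (m.1 2 - m'.1 2) ^ 2 := by
  have h2 : m.1 - m'.1 = ofP (toW m.1 - toW m'.1) (m.1 2 - m'.1 2) := by
    ext i
    fin_cases i <;> simp [toW, ofP]
  rw [Subtype.dist_eq, dist_eq_norm, h2, norm_ofP_sq]

lemma Over.transport {v : ℂ × ℂ} {m m' : S2} (h : Over v m') (hd : dist m m' < 1) :
    Over (transport m v) m := by
  have hm := S2_mul_conj m
  refine ⟨fun h0 => h.1 ?_, ?_, ?_⟩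
  · obtain ⟨-, a1, a2⟩ := h
    have b1 : (1 + (m.1 2 : ℂ)) * v.1 + toW m.1 * v.2 = 0 := congrArg Prod.fst h0
    have b2 : (starRingEnd ℂ) (toW m.1) * v.1 + (1 - (m.1 2 : ℂ)) * v.2 = 0 :=
      congrArg Prod.snd h0
    have hD : ((dist m m' ^ 2 : ℝ) : ℂ) = (toW m.1 - toW m'.1) *
        ((starRingEnd ℂ) (toW m.1) - (starRingEnd ℂ) (toW m'.1)) +
        ((m.1 2 : ℂ) - (m'.1 2 : ℂ)) ^ 2 := by
      rw [← map_sub, Complex.mul_conj, Complex.normSq_eq_norm_sq, dist_S2_sq]
      push_cast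
      ring
    have hne : ((dist m m' ^ 2 : ℝ) : ℂ) - 4 ≠ 0 := by
      have : dist m m' ^ 2 - 4 ≠ 0 := by nlinarith [dist_nonneg (x := m) (y := m')]
      exact_mod_cast this
    have c1 : (((dist m m' ^ 2 : ℝ) : ℂ) - 4) * v.1 = 0 := by
      rw [hD]
      linear_combination ((m.1 2 : ℂ) - (m'.1 2 : ℂ) - 2) * (b1 + a1) +
        (toW m.1 - toW m'.1) * (b2 + a2)
    have c2 : (((dist m m' ^ 2 : ℝ) : ℂ) - 4) * v.2 = 0 := by
      rw [hD]
      linear_combination ((starRingEnd ℂ) (toW m.1) - (starRingEnd ℂ) (toW m'.1)) * (b1 + a1) +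
        (-(m.1 2 : ℂ) + (m'.1 2 : ℂ) - 2) * (b2 + a2)
    exact Prod.ext ((mul_eq_zero.1 c1).resolve_left hne) ((mul_eq_zero.1 c2).resolve_left hne)
  · simp only [P103.transport]
    linear_combination (-v.1) * hm
  · simp only [P103.transport]
    linear_combination (-v.2) * hm

lemma exists_over (m : S2) : ∃ v, Over v m := by
  have hm := S2_mul_conj m
  by_cases h : (1 : ℂ) - (m.1 2 : ℂ) = 0
  · refine ⟨(1 + (m.1 2 : ℂ), (starRingEnd ℂ) (toW m.1)), fun h0 => ?_, ?_, ?_⟩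
    · have b1 : 1 + (m.1 2 : ℂ) = 0 := congrArg Prod.fst h0
      have : (2 : ℂ) = 0 := by linear_combination h + b1
      exact two_ne_zero this
    · linear_combination -hm
    · ring
  · refine ⟨(toW m.1, 1 - (m.1 2 : ℂ)), fun h0 => h (congrArg Prod.snd h0), ?_, ?_⟩
    · ring
    · linear_combination -hm

/-- Radial contraction of the simplex. -/
def contr {n : ℕ} (r : ℝ) (t : Dl n) : Dl n :=
  ⟨(1 - (Set.projIcc (0 : ℝ) 1 zero_le_one r : ℝ)) • (stdSimplex.vertex 0 : Dl n).1 +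
      (Set.projIcc (0 : ℝ) 1 zero_le_one r : ℝ) • t.1,
    convex_stdSimplex ℝ _ (stdSimplex.vertex 0 : Dl n).2 t.2
      (sub_nonneg.2 (Set.projIcc (0 : ℝ) 1 zero_le_one r).2.2)
      (Set.projIcc (0 : ℝ) 1 zero_le_one r).2.1 (by ring)⟩

lemma continuous_contr {n : ℕ} (r : ℝ) : Continuous (contr (n := n) r) := by
  unfold contr
  fun_prop

lemma contr_zero {n : ℕ} (t : Dl n) : contr 0 t = stdSimplex.vertex 0 := by
  apply Subtype.ext
  simp [contr]

lemma contr_one {n : ℕ} (t : Dl n) : contr 1 t = t := by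
  apply Subtype.ext
  simp [contr]

lemma dist_contr {n : ℕ} (r r' : ℝ) (t : Dl n) : dist (contr r t) (contr r' t) ≤ 2 * |r - r'| := by
  set a : ℝ := (Set.projIcc (0 : ℝ) 1 zero_le_one r : ℝ)
  set b : ℝ := (Set.projIcc (0 : ℝ) 1 zero_le_one r' : ℝ)
  have h1 : (contr r t).1 - (contr r' t).1 = (a - b) • (t.1 - (stdSimplex.vertex 0 : Dl n).1) := by
    change ((1 - a) • (stdSimplex.vertex 0 : Dl n).1 + a • t.1) -
      ((1 - b) • (stdSimplex.vertex 0 : Dl n).1 + b • t.1) = _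
    module
  have h2 : |a - b| ≤ |r - r'| := Set.abs_projIcc_sub_projIcc zero_le_one
  have h3 : ∀ s : Dl n, ‖s.1‖ ≤ 1 := fun s => by
    simpa using stdSimplex_subset_closedBall s.2
  have h4 : ‖t.1 - (stdSimplex.vertex 0 : Dl n).1‖ ≤ 2 :=
    (norm_sub_le _ _).trans (by linarith [h3 t, h3 (stdSimplex.vertex 0)])
  rw [Subtype.dist_eq, dist_eq_norm, h1, norm_smul, Real.norm_eq_abs]
  nlinarith [abs_nonneg (a - b), norm_nonneg (t.1 - (stdSimplex.vertex 0 : Dl n).1)]

/-- Every singular simplex of the sphere lifts to homogeneous coordinates. -/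
theorem exists_lift {n : ℕ} (σ : C(Dl n, S2)) :
    ∃ v : C(Dl n, ℂ × ℂ), ∀ t, Over (v t) (σ t) := by
  obtain ⟨η, hη, h⟩ := Metric.uniformContinuous_iff.1
    (CompactSpace.uniformContinuous_of_continuous σ.continuous) 1 one_pos
  obtain ⟨N, hN⟩ := exists_nat_one_div_lt (half_pos hη)
  have key : ∀ k : ℕ, ∃ v : C(Dl n, ℂ × ℂ), ∀ t, Over (v t) (σ (contr (k / (N + 1)) t)) := by
    intro k
    induction k with
    | zero =>
      obtain ⟨v, hv⟩ := exists_over (σ (stdSimplex.vertex 0))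
      exact ⟨ContinuousMap.const _ v, fun t => by simpa [contr_zero] using hv⟩
    | succ k ih =>
      obtain ⟨v, hv⟩ := ih
      refine ⟨⟨fun t => transport (σ (contr (((k + 1 : ℕ) : ℝ) / (N + 1)) t)) (v t),
        continuous_transport.comp
          ((σ.continuous.comp (continuous_contr _)).prodMk v.continuous)⟩, fun t => ?_⟩
      refine (hv t).transport (h ((dist_contr _ _ t).trans_lt ?_))
      have : ((k + 1 : ℕ) : ℝ) / (N + 1) - k / (N + 1) = 1 / (N + 1) := by
        push_cast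
        ring
      rw [this, abs_of_pos (by positivity)]
      linarith
  obtain ⟨v, hv⟩ := key (N + 1)
  refine ⟨v, fun t => ?_⟩
  have := hv t
  rwa [show ((N + 1 : ℕ) : ℝ) / (N + 1) = 1 by push_cast; field_simp, contr_one] at this

/-- Hermitian product. -/
def herm (v v' : ℂ × ℂ) : ℂ := (starRingEnd ℂ) v.1 * v'.1 + (starRingEnd ℂ) v.2 * v'.2

lemma herm_self_ne {v : ℂ × ℂ} (hv : v ≠ 0) : herm v v ≠ 0 := by
  intro h
  rw [herm, Complex.conj_mul', Complex.conj_mul'] at h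
  have h' : ‖v.1‖ ^ 2 + ‖v.2‖ ^ 2 = 0 := by exact_mod_cast h
  have h1 : ‖v.1‖ = 0 := by nlinarith [sq_nonneg ‖v.1‖, sq_nonneg ‖v.2‖]
  have h2 : ‖v.2‖ = 0 := by nlinarith [sq_nonneg ‖v.1‖, sq_nonneg ‖v.2‖]
  exact hv (Prod.ext (norm_eq_zero.1 h1) (norm_eq_zero.1 h2))

/-- Ratio of proportional vectors. -/
def rat (v v' : ℂ × ℂ) : ℂ := herm v v' / herm v v

lemma rat_smul {v : ℂ × ℂ} (hv : v ≠ 0) (c : ℂ) : rat v (c • v) = c := by
  rw [rat, div_eq_iff (herm_self_ne hv)]
  simp only [herm, Prod.smul_fst, Prod.smul_snd, smul_eq_mul]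
  ring

lemma Over.eq_smul {v v' : ℂ × ℂ} {m : S2} (h : Over v m) (h' : Over v' m) :
    v' = rat v v' • v := by
  have hne := herm_self_ne h.1
  obtain ⟨-, a1, a2⟩ := h
  obtain ⟨-, b1, b2⟩ := h'
  have hdet : v.1 * v'.2 = v'.1 * v.2 := by
    linear_combination (v'.2 * a1 - v.2 * b1 + v.1 * b2 - v'.1 * a2) / 2
  ext
  · simp only [rat, Prod.smul_fst, smul_eq_mul]
    field_simp
    simp only [herm]
    linear_combination (-(starRingEnd ℂ) v.2) * hdet
  · simp only [rat, Prod.smul_snd, smul_eq_mul]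
    field_simp
    simp only [herm]
    linear_combination ((starRingEnd ℂ) v.1) * hdet

lemma Over.rat_ne {v v' : ℂ × ℂ} {m : S2} (h : Over v m) (h' : Over v' m) : rat v v' ≠ 0 := by
  intro h0
  have := h.eq_smul h'
  rw [h0, zero_smul] at this
  exact h'.1 this

lemma Over.rat_mul {v v' v'' : ℂ × ℂ} {m : S2} (h : Over v m) (h' : Over v' m)
    (h'' : Over v'' m) : rat v v'' = rat v v' * rat v' v'' := by
  have h1 := h.eq_smul h'
  have h2 := h'.eq_smul h''
  have : v'' = (rat v v' * rat v' v'') • v := by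
    rw [mul_comm, mul_smul, ← h1, ← h2]
  conv_lhs => rw [this, rat_smul h.1]

lemma continuous_rat {A : Type*} [TopologicalSpace A] {v v' : A → ℂ × ℂ} (hv : Continuous v)
    (hv' : Continuous v') (h : ∀ a, v a ≠ 0) : Continuous fun a => rat (v a) (v' a) := by
  unfold rat
  refine Continuous.div ?_ ?_ fun a => herm_self_ne (h a) <;> unfold herm <;> fun_prop

/-- A chosen lift. -/
def lift {n : ℕ} (σ : C(Dl n, S2)) : C(Dl n, ℂ × ℂ) := (exists_lift σ).choose

lemma lift_over {n : ℕ} (σ : C(Dl n, S2)) (t : Dl n) : Over (lift σ t) (σ t) :=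
  (exists_lift σ).choose_spec t

/-- Comparison of a lift of an edge with the chosen one. -/
def beta (γ : C(Dl 1, S2)) (v : Dl 1 → ℂ × ℂ) : ℝ := wind fun t => rat (lift γ t) (v t)

lemma beta_change (γ : C(Dl 1, S2)) {v v' : Dl 1 → ℂ × ℂ} (hv : Continuous v)
    (hv' : Continuous v') (h : ∀ t, Over (v t) (γ t)) (h' : ∀ t, Over (v' t) (γ t)) :
    beta γ v' = beta γ v + wind fun t => rat (v t) (v' t) := by
  rw [beta, beta, ← wind_mul
    (continuous_rat (lift γ).continuous hv fun t => (lift_over γ t).1)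
    (fun t => (lift_over γ t).rat_ne (h t)) (continuous_rat hv hv' fun t => (h t).1)
    fun t => (h t).rat_ne (h' t)]
  congr 1
  funext t
  exact (lift_over γ t).rat_mul (h t) (h' t)

/-- The degree two cochain. -/
def alpha (σ : C(Dl 2, S2)) : ℝ :=
  beta (σ.comp (face 0)) (fun t => lift σ (face 0 t)) -
    beta (σ.comp (face 1)) (fun t => lift σ (face 1 t)) +
    beta (σ.comp (face 2)) (fun t => lift σ (face 2 t))

lemma alpha_eq (σ : C(Dl 2, S2)) {v : Dl 2 → ℂ × ℂ} (hv : Continuous v)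
    (h : ∀ t, Over (v t) (σ t)) :
    alpha σ = beta (σ.comp (face 0)) (fun t => v (face 0 t)) -
      beta (σ.comp (face 1)) (fun t => v (face 1 t)) +
      beta (σ.comp (face 2)) (fun t => v (face 2 t)) := by
  have h1 : ∀ i : Fin 3, beta (σ.comp (face i)) (fun t => v (face i t)) =
      beta (σ.comp (face i)) (fun t => lift σ (face i t)) +
        wind fun t => rat (lift σ (face i t)) (v (face i t)) := fun i =>
    beta_change _ (by fun_prop) (by fun_prop) (fun t => lift_over σ _) fun t => h _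
  have h2 := wind_boundary (Φ := fun t => rat (lift σ t) (v t))
    (continuous_rat (lift σ).continuous hv fun t => (lift_over σ t).1)
    fun t => (lift_over σ t).rat_ne (h t)
  rw [h1, h1, h1, alpha]
  linarith

end Vale.Agent.P103
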